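import Mathlib

set_option linter.unusedSectionVars false

namespace Vale.Agent.P358
open Matrix
open scoped ComplexOrder MatrixOrder

variable {ι : Type*} [Fintype ι] [DecidableEq ι]

/-- real diagonal matrix -/
noncomputable def dg (d : ι → ℝ) : Matrix ι ι ℂ := diagonal fun i => (d i : ℂ)

/-- trace of a function of a Hermitian matrix -/
noncomputable def tf (f : ℝ → ℝ) (W : Matrix ι ι ℂ) : ℝ :=
  if h : W.IsHermitian then ∑ i, f (h.eigenvalues i) else 0

lemma dg_herm (d : ι → ℝ) : (dg d).IsHermitian := by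
  unfold dg
  rw [isHermitian_diagonal_iff]
  intro i
  exact Complex.conj_ofReal _

lemma dg_psd {d : ι → ℝ} (h : ∀ i, 0 ≤ d i) : (dg d).PosSemidef := by
  unfold dg
  apply PosSemidef.diagonal
  intro i
  simpa using h i

lemma conj_herm (U : Matrix ι ι ℂ) (d : ι → ℝ) : (U * dg d * Uᴴ).IsHermitian :=
  isHermitian_mul_mul_conjTranspose U (dg_herm d)

lemma tf_eq (f : ℝ → ℝ) {U : Matrix ι ι ℂ} (hU : Uᴴ * U = 1) (d : ι → ℝ) :
    tf f (U * dg d * Uᴴ) = ∑ i, f (d i) := by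
  have h := conj_herm U d
  unfold tf
  rw [dif_pos h]
  have h1 := h.roots_charpoly_eq_eigenvalues
  have h2 : (U * dg d * Uᴴ).charpoly.roots =
      Multiset.map (fun i => (d i : ℂ)) Finset.univ.val := by
    rw [charpoly_mul_comm, ← Matrix.mul_assoc, hU, Matrix.one_mul, dg, charpoly_diagonal,
      Polynomial.roots_prod]
    · simp
    · simp [Finset.prod_ne_zero_iff, Polynomial.X_sub_C_ne_zero]
  have h3 := congrArg (fun m : Multiset ℂ => (m.map fun z => f z.re).sum) (h1.symm.trans h2)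
  simp only [Multiset.map_map, Function.comp_def, Complex.ofReal_re, Complex.coe_algebraMap] at h3
  exact h3

lemma spec {W : Matrix ι ι ℂ} (h : W.IsHermitian) :
    ∃ (U : Matrix ι ι ℂ) (d : ι → ℝ), Uᴴ * U = 1 ∧ U * Uᴴ = 1 ∧ W = U * dg d * Uᴴ := by
  refine ⟨h.eigenvectorUnitary, h.eigenvalues, ?_, ?_, ?_⟩
  · exact Unitary.coe_star_mul_self h.eigenvectorUnitary
  · exact Unitary.coe_mul_star_self h.eigenvectorUnitary
  · conv_lhs => rw [h.spectral_theorem, Unitary.conjStarAlgAut_apply]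
    rfl

lemma dg_nonneg_of_psd {U : Matrix ι ι ℂ} (hU : Uᴴ * U = 1) {d : ι → ℝ}
    (h : (U * dg d * Uᴴ).PosSemidef) (i : ι) : 0 ≤ d i := by
  have h1 := h.conjTranspose_mul_mul_same U
  have h2 : Uᴴ * (U * dg d * Uᴴ) * U = dg d := by
    calc Uᴴ * (U * dg d * Uᴴ) * U = (Uᴴ * U) * dg d * (Uᴴ * U) := by simp only [Matrix.mul_assoc]
      _ = dg d := by rw [hU, Matrix.one_mul, Matrix.mul_one]
  rw [h2] at h1
  have := h1.diag_nonneg (i := i)
  simpa [dg] using this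

lemma specP {W : Matrix ι ι ℂ} (h : W.PosSemidef) :
    ∃ (U : Matrix ι ι ℂ) (d : ι → ℝ), Uᴴ * U = 1 ∧ U * Uᴴ = 1 ∧ W = U * dg d * Uᴴ ∧
      ∀ i, 0 ≤ d i := by
  obtain ⟨U, d, h1, h2, h3⟩ := spec h.1
  exact ⟨U, d, h1, h2, h3, dg_nonneg_of_psd h1 (h3 ▸ h)⟩

lemma trace_conj {U : Matrix ι ι ℂ} (hU : Uᴴ * U = 1) (A : Matrix ι ι ℂ) :
    (U * A * Uᴴ).trace = A.trace := by
  rw [trace_mul_cycle, hU, Matrix.one_mul]

lemma trace_dg (d : ι → ℝ) : (dg d).trace.re = ∑ i, d i := by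
  simp [dg]

lemma trace_spec {U : Matrix ι ι ℂ} (hU : Uᴴ * U = 1) (d : ι → ℝ) :
    (U * dg d * Uᴴ).trace.re = ∑ i, d i := by
  rw [trace_conj hU, trace_dg]

lemma smul_spec (c : ℝ) (U : Matrix ι ι ℂ) (d : ι → ℝ) :
    (c : ℂ) • (U * dg d * Uᴴ) = U * dg (fun i => c * d i) * Uᴴ := by
  have : dg (fun i => c * d i) = (c : ℂ) • dg d := by
    ext i j; by_cases h : i = j <;> simp [dg, diagonal, h]
  rw [this]; simp

lemma dg_add (d e : ι → ℝ) : dg (fun i => d i + e i) = dg d + dg e := by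
  ext i j; by_cases h : i = j <;> simp [dg, diagonal, h]

lemma dg_sub (d e : ι → ℝ) : dg (fun i => d i - e i) = dg d - dg e := by
  ext i j; by_cases h : i = j <;> simp [dg, diagonal, h]

lemma dg_const (c : ℝ) : dg (fun _ : ι => c) = (c : ℂ) • (1 : Matrix ι ι ℂ) := by
  ext i j; by_cases h : i = j <;> simp [dg, diagonal, h, one_apply]

lemma conj_diag (C : Matrix ι ι ℂ) (d : ι → ℝ) (j : ι) :
    ((C * dg d * Cᴴ) j j).re = ∑ k, Complex.normSq (C j k) * d k := by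
  rw [Matrix.mul_apply, Complex.re_sum]
  refine Finset.sum_congr rfl fun k _ => ?_
  rw [dg, mul_diagonal, conjTranspose_apply, Complex.normSq_apply]
  simp; ring

lemma row_sum {C : Matrix ι ι ℂ} (h : C * Cᴴ = 1) (j : ι) :
    ∑ k, Complex.normSq (C j k) = 1 := by
  have := congrArg (fun M : Matrix ι ι ℂ => (M j j).re) h
  simp only [Matrix.mul_apply, conjTranspose_apply, Complex.re_sum, one_apply_eq,
    Complex.one_re] at this
  rw [← this]
  refine Finset.sum_congr rfl fun k _ => ?_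
  rw [Complex.normSq_apply]; simp

lemma col_sum {C : Matrix ι ι ℂ} (h : Cᴴ * C = 1) (k : ι) :
    ∑ j, Complex.normSq (C j k) = 1 := by
  have := row_sum (C := Cᴴ) (by simpa using h) k
  simpa using this

/-- Schur/Jensen: concave trace functions are dominated by the diagonal. -/
lemma tf_le_diag {f : ℝ → ℝ} (hf : ConcaveOn ℝ (Set.Ici 0) f) {W V : Matrix ι ι ℂ}
    (hW : W.PosSemidef) (h1 : Vᴴ * V = 1) (h2 : V * Vᴴ = 1) :
    tf f W ≤ ∑ j, f ((Vᴴ * W * V) j j).re := by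
  obtain ⟨U, d, hU1, hU2, rfl, hd⟩ := specP hW
  rw [tf_eq f hU1]
  have e1 : Vᴴ * (U * dg d * Uᴴ) * V = (Vᴴ * U) * dg d * (Vᴴ * U)ᴴ := by
    simp [Matrix.mul_assoc]
  have c1 : (Vᴴ * U) * (Vᴴ * U)ᴴ = 1 := by
    rw [conjTranspose_mul, conjTranspose_conjTranspose, Matrix.mul_assoc, ← Matrix.mul_assoc U,
      hU2, Matrix.one_mul, h1]
  have c2 : (Vᴴ * U)ᴴ * (Vᴴ * U) = 1 := by
    rw [conjTranspose_mul, conjTranspose_conjTranspose, Matrix.mul_assoc, ← Matrix.mul_assoc V,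
      h2, Matrix.one_mul, hU1]
  rw [e1]
  simp_rw [conj_diag]
  calc ∑ k, f (d k) = ∑ k, ∑ j, Complex.normSq ((Vᴴ * U) j k) * f (d k) := by
        refine Finset.sum_congr rfl fun k _ => ?_
        rw [← Finset.sum_mul, col_sum c2, one_mul]
    _ = ∑ j, ∑ k, Complex.normSq ((Vᴴ * U) j k) * f (d k) := Finset.sum_comm
    _ ≤ _ := by
        refine Finset.sum_le_sum fun j _ => ?_
        have := hf.le_map_sum (t := Finset.univ) (w := fun k => Complex.normSq ((Vᴴ * U) j k))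
          (p := d) (fun k _ => Complex.normSq_nonneg _) (row_sum c1 j) (fun k _ => hd k)
        simpa using this

/-- log determinant -/
noncomputable def ld (W : Matrix ι ι ℂ) : ℝ := Real.log W.det.re

lemma det_spec {U : Matrix ι ι ℂ} (hU : Uᴴ * U = 1) (d : ι → ℝ) :
    (U * dg d * Uᴴ).det = ((∏ i, d i : ℝ) : ℂ) := by
  rw [det_mul_comm, ← Matrix.mul_assoc, hU, Matrix.one_mul, dg, det_diagonal]
  simp

lemma ld_spec {U : Matrix ι ι ℂ} (hU : Uᴴ * U = 1) {d : ι → ℝ} (hd : ∀ i, 0 < d i) :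
    ld (U * dg d * Uᴴ) = ∑ i, Real.log (d i) := by
  rw [ld, det_spec hU, Complex.ofReal_re, Real.log_prod (fun i _ => (hd i).ne')]

lemma det_re_pos {W : Matrix ι ι ℂ} (h : W.PosDef) : 0 < W.det.re ∧ W.det = (W.det.re : ℂ) := by
  have := h.det_pos
  rw [Complex.lt_def] at this
  refine ⟨by simpa using this.1, ?_⟩
  apply Complex.ext <;> simp [← this.2]

lemma psd_factor {W : Matrix ι ι ℂ} (h : W.PosSemidef) : ∃ C : Matrix ι ι ℂ, W = Cᴴ * C := by
  obtain ⟨B, hB⟩ := CStarAlgebra.nonneg_iff_eq_star_mul_self.mp h.nonneg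
  exact ⟨B, hB⟩

lemma trace_mul_nonneg {A B : Matrix ι ι ℂ} (hA : A.PosSemidef) (hB : B.PosSemidef) :
    0 ≤ (A * B).trace.re := by
  obtain ⟨C, rfl⟩ := psd_factor hB
  have := (hA.mul_mul_conjTranspose_same C).trace_nonneg
  rw [trace_mul_cycle, trace_mul_comm] at this
  exact (Complex.le_def.mp this).1

lemma ld_tangent {A B : Matrix ι ι ℂ} (hA : A.PosDef) (hB : B.PosDef) :
    ld A ≤ ld B + (B⁻¹ * A).trace.re - Fintype.card ι := by
  obtain ⟨C, hC⟩ := psd_factor hB.inv.posSemidef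
  have hE : (C * A * Cᴴ).PosSemidef := hA.posSemidef.mul_mul_conjTranspose_same C
  have hdet : (C * A * Cᴴ).det * B.det = A.det := by
    have h1 : B⁻¹.det * B.det = 1 := by
      rw [← det_mul, nonsing_inv_mul _ ((isUnit_iff_isUnit_det _).mp hB.isUnit), det_one]
    rw [hC, det_mul] at h1
    rw [det_mul, det_mul]
    linear_combination A.det * h1
  have htr : (C * A * Cᴴ).trace = (B⁻¹ * A).trace := by
    rw [trace_mul_cycle, hC]
  obtain ⟨U, e, hU1, -, hE3, he⟩ := specP hE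
  obtain ⟨a1, a2⟩ := det_re_pos hA
  obtain ⟨b1, b2⟩ := det_re_pos hB
  rw [hE3, det_spec hU1, a2, b2] at hdet
  have hdet' : (∏ i, e i) * B.det.re = A.det.re := by exact_mod_cast hdet
  have hpos : ∀ i, 0 < e i := by
    intro i
    rcases (he i).lt_or_eq with h | h
    · exact h
    · exfalso
      rw [Finset.prod_eq_zero (Finset.mem_univ i) h.symm] at hdet'
      linarith
  have htr' : (B⁻¹ * A).trace.re = ∑ i, e i := by rw [← htr, hE3, trace_spec hU1]
  unfold ld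
  rw [← hdet', Real.log_mul (Finset.prod_pos fun i _ => hpos i).ne' b1.ne',
    Real.log_prod (fun i _ => (hpos i).ne'), htr']
  have : ∑ i, Real.log (e i) ≤ ∑ i, (e i - 1) :=
    Finset.sum_le_sum fun i _ => Real.log_le_sub_one_of_pos (hpos i)
  rw [Finset.sum_sub_distrib] at this
  simp at this
  linarith

lemma ld_step0 {W B : Matrix ι ι ℂ} (hW : W.PosDef) (hB : B.PosDef) :
    ld W + (B⁻¹ * (B - W)).trace.re ≤ ld B := by
  have := ld_tangent hW hB
  rw [Matrix.mul_sub, nonsing_inv_mul _ ((isUnit_iff_isUnit_det _).mp hB.isUnit), trace_sub]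
  simp
  linarith

lemma ld_mono {W B : Matrix ι ι ℂ} (hW : W.PosDef) (hB : B.PosDef) (h : (B - W).PosSemidef) :
    ld W ≤ ld B := by
  have := ld_step0 hW hB
  have := trace_mul_nonneg hB.inv.posSemidef h
  linarith

lemma ld_step {W B Wb J : Matrix ι ι ℂ} (hW : W.PosDef) (hB : B.PosDef)
    (h : (B - W).PosSemidef) (h' : (Wb - B).PosSemidef) (hJ : J.IsHermitian) (hJW : J * Wb = 1) :
    ld W + (J * (B - W)).trace.re ≤ ld B := by
  have h0 := ld_step0 hW hB
  have hu := (isUnit_iff_isUnit_det _).mp hB.isUnit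
  have i1 : B⁻¹ * B = 1 := nonsing_inv_mul _ hu
  have i2 : B * B⁻¹ = 1 := mul_nonsing_inv _ hu
  have p1 := hB.posSemidef.conjTranspose_mul_mul_same (B⁻¹ - J)
  have p2 := h'.conjTranspose_mul_mul_same J
  have p3 := p1.add p2
  have e : (B⁻¹ - J)ᴴ * B * (B⁻¹ - J) + Jᴴ * (Wb - B) * J = B⁻¹ - J := by
    rw [conjTranspose_sub, hB.inv.1.eq, hJ.eq]
    simp only [Matrix.sub_mul, Matrix.mul_sub, i1, hJW, Matrix.one_mul]
    rw [Matrix.mul_assoc J B B⁻¹, i2, Matrix.mul_one]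
    abel
  rw [e] at p3
  have := trace_mul_nonneg p3 h
  rw [Matrix.sub_mul, trace_sub, Complex.sub_re] at this
  linarith

end Vale.Agent.P358
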