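import Vale.Agent.P358.Basic

set_option linter.unusedSectionVars false

namespace Vale.Agent.P358
open Matrix
open scoped ComplexOrder MatrixOrder

variable {K R : Type*} [Fintype K] [DecidableEq K] [Fintype R] [DecidableEq R]

/-- scalar block matrix -/
noncomputable def sc (K : Type*) [DecidableEq K] (α β γ δ : ℝ) : Matrix (K ⊕ K) (K ⊕ K) ℂ :=
  fromBlocks ((α : ℂ) • 1) ((β : ℂ) • 1) ((γ : ℂ) • 1) ((δ : ℂ) • 1)

lemma sc_mul (α β γ δ α' β' γ' δ' : ℝ) :
    sc K α β γ δ * sc K α' β' γ' δ' =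
      sc K (α * α' + β * γ') (α * β' + β * δ') (γ * α' + δ * γ') (γ * β' + δ * δ') := by
  simp only [sc, fromBlocks_multiply, Matrix.smul_mul, Matrix.one_mul, smul_smul, ← add_smul]
  push_cast
  rfl

lemma sc_add (α β γ δ α' β' γ' δ' : ℝ) :
    sc K α β γ δ + sc K α' β' γ' δ' = sc K (α + α') (β + β') (γ + γ') (δ + δ') := by
  simp only [sc, fromBlocks_add, ← add_smul]
  push_cast
  rfl

lemma sc_ct (α β γ δ : ℝ) : (sc K α β γ δ)ᴴ = sc K α γ β δ := by
  simp [sc, fromBlocks_conjTranspose]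

lemma sc_one : sc K 1 0 0 1 = 1 := by
  simp [sc, fromBlocks_one]

lemma trace_blocks (A B C D : Matrix K K ℂ) : (fromBlocks A B C D).trace = A.trace + D.trace := by
  simp [trace, Fintype.sum_sum_type]

lemma trace_sc (α β γ δ : ℝ) (M N : Matrix K K ℂ) :
    (sc K α β γ δ * fromBlocks M 0 0 N).trace.re = α * M.trace.re + δ * N.trace.re := by
  simp [sc, fromBlocks_multiply, trace_blocks]

lemma psd_bd {M N : Matrix K K ℂ} (hM : M.PosSemidef) (hN : N.PosSemidef) :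
    (fromBlocks M 0 0 N).PosSemidef := by
  obtain ⟨C, rfl⟩ := psd_factor hM
  obtain ⟨D, rfl⟩ := psd_factor hN
  have := posSemidef_conjTranspose_mul_self (fromBlocks C 0 0 D)
  simpa [fromBlocks_conjTranspose, fromBlocks_multiply] using this

/-- the interpolating matrix -/
noncomputable def Wm (p q r : ℝ) (M N : Matrix K K ℂ) : Matrix (K ⊕ K) (K ⊕ K) ℂ :=
  1 + (sc K p 0 q r)ᴴ * fromBlocks M 0 0 N * sc K p 0 q r

lemma Wm_pd (p q r : ℝ) {M N : Matrix K K ℂ} (hM : M.PosSemidef) (hN : N.PosSemidef) :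
    (Wm p q r M N).PosDef :=
  PosDef.one.add_posSemidef ((psd_bd hM hN).conjTranspose_mul_mul_same _)

lemma Wm_sub (p q r : ℝ) (M N M' N' : Matrix K K ℂ) :
    Wm p q r M' N' - Wm p q r M N =
      (sc K p 0 q r)ᴴ * fromBlocks (M' - M) 0 0 (N' - N) * sc K p 0 q r := by
  have : fromBlocks (M' - M) 0 0 (N' - N) = fromBlocks M' 0 0 N' - fromBlocks M 0 0 N := by
    ext (i | i) (j | j) <;> simp
  rw [this, Matrix.mul_sub, Matrix.sub_mul, Wm, Wm]
  abel

lemma Wm_le (p q r : ℝ) {M N M' N' : Matrix K K ℂ} (hM : (M' - M).PosSemidef)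
    (hN : (N' - N).PosSemidef) : (Wm p q r M' N' - Wm p q r M N).PosSemidef := by
  rw [Wm_sub]
  exact (psd_bd hM hN).conjTranspose_mul_mul_same _

lemma ld_Wm_zero (p q r : ℝ) : ld (Wm p q r (0 : Matrix K K ℂ) 0) = 0 := by
  simp [ld, Wm]

lemma Wm_step (p q r μ ν : ℝ) (hμ : 0 ≤ μ) (hν : 0 ≤ ν) {M N M' N' : Matrix K K ℂ}
    (hM : M.PosSemidef) (hN : N.PosSemidef) (hM1 : (M' - M).PosSemidef)
    (hN1 : (N' - N).PosSemidef) (hM2 : ((μ : ℂ) • 1 - M').PosSemidef)
    (hN2 : ((ν : ℂ) • 1 - N').PosSemidef) :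
    ld (Wm p q r M N) +
      (p ^ 2 + p ^ 2 * r ^ 2 * ν) / (1 + p ^ 2 * μ + (q ^ 2 + r ^ 2) * ν + p ^ 2 * r ^ 2 * (μ * ν)) *
        (M' - M).trace.re +
      (q ^ 2 + r ^ 2 + p ^ 2 * r ^ 2 * μ) /
        (1 + p ^ 2 * μ + (q ^ 2 + r ^ 2) * ν + p ^ 2 * r ^ 2 * (μ * ν)) * (N' - N).trace.re ≤
      ld (Wm p q r M' N') := by
  obtain ⟨w, hw⟩ : ∃ w, w = 1 + p ^ 2 * μ + (q ^ 2 + r ^ 2) * ν + p ^ 2 * r ^ 2 * (μ * ν) :=
    ⟨_, rfl⟩
  have hw0 : 0 < w := by rw [hw]; positivity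
  rw [← hw]
  have hM' : M'.PosSemidef := by simpa using hM.add hM1
  have hN' : N'.PosSemidef := by simpa using hN.add hN1
  let J := sc K ((1 + ν * r ^ 2) / w) (-(ν * q * r) / w) (-(ν * q * r) / w)
    ((1 + μ * p ^ 2 + ν * q ^ 2) / w)
  have hJ : J.IsHermitian := sc_ct _ _ _ _
  have hb : fromBlocks ((μ : ℂ) • (1 : Matrix K K ℂ)) 0 0 ((ν : ℂ) • (1 : Matrix K K ℂ)) =
      sc K μ 0 0 ν := by simp [sc]
  have hJW : J * Wm p q r ((μ : ℂ) • (1 : Matrix K K ℂ)) ((ν : ℂ) • 1) = 1 := by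
    rw [Wm, hb, sc_ct, sc_mul, sc_mul, ← sc_one (K := K), sc_add, sc_mul]
    congr 1 <;> field_simp <;> rw [hw] <;> ring
  have := ld_step (Wm_pd p q r hM hN) (Wm_pd p q r hM' hN') (Wm_le p q r hM1 hN1)
    (Wm_le p q r hM2 hN2) hJ hJW
  rw [Wm_sub, ← Matrix.mul_assoc, trace_mul_cycle, ← Matrix.mul_assoc, sc_ct, sc_mul, sc_mul,
    trace_sc] at this
  convert this using 1
  field_simp
  ring

lemma quad_dg (d : K → ℝ) (v : K → ℂ) :
    (star v ⬝ᵥ (dg d *ᵥ v)).re = ∑ i, d i * Complex.normSq (v i) := by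
  rw [dotProduct, Complex.re_sum]
  refine Finset.sum_congr rfl fun i _ => ?_
  rw [dg, mulVec_diagonal, Complex.normSq_apply]
  simp; ring

/-- counting function -/
noncomputable def cnt (s : ℝ) (G : Matrix R R ℂ) : ℝ := tf (fun g => if s < g then 1 else 0) G

lemma count_le {U : Matrix K K ℂ} (hU : Uᴴ * U = 1) (μ : K → ℝ) (m : ℝ)
    {V : Matrix R R ℂ} (hV : Vᴴ * V = 1) (g : R → ℝ) (s : ℝ) (F : Matrix K R ℂ) (c : ℝ) (hc : 0 < c)
    (h : (Fᴴ * (U * dg (fun k => μ k - m) * Uᴴ) * F -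
      (c : ℂ) • (V * dg (fun j => g j - s) * Vᴴ)).PosSemidef) :
    (∑ j, if s < g j then (1 : ℝ) else 0) ≤ ∑ k, if m < μ k then (1 : ℝ) else 0 := by
  rw [Finset.sum_boole, Finset.sum_boole, Nat.cast_le, ← Fintype.card_subtype,
    ← Fintype.card_subtype]
  let H := Uᴴ * F * V
  have h1 := h.conjTranspose_mul_mul_same V
  have e1 : Vᴴ * (Fᴴ * (U * dg (fun k => μ k - m) * Uᴴ) * F -
      (c : ℂ) • (V * dg (fun j => g j - s) * Vᴴ)) * V =
      Hᴴ * dg (fun k => μ k - m) * H - (c : ℂ) • dg (fun j => g j - s) := by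
    rw [Matrix.mul_sub, Matrix.sub_mul, Matrix.mul_smul, Matrix.smul_mul]
    congr 1
    · simp [H, Matrix.mul_assoc]
    · congr 1
      calc _ = (Vᴴ * V) * dg (fun j => g j - s) * (Vᴴ * V) := by simp only [Matrix.mul_assoc]
        _ = _ := by rw [hV, Matrix.one_mul, Matrix.mul_one]
  rw [e1] at h1
  let L : ({j // s < g j} → ℂ) →ₗ[ℂ] ({k // m < μ k} → ℂ) :=
    (H.submatrix (fun k : {k // m < μ k} => k.1) (fun j : {j // s < g j} => j.1)).mulVecLin
  have hL : Function.Injective L := by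
    rw [← LinearMap.ker_eq_bot, LinearMap.ker_eq_bot']
    intro y hy
    let y' : R → ℂ := fun j => if h : s < g j then y ⟨j, h⟩ else 0
    have hy' : ∀ k, m < μ k → (H *ᵥ y') k = 0 := by
      intro k hk
      have := congrFun hy ⟨k, hk⟩
      simp only [L, mulVecLin_apply, mulVec, dotProduct, submatrix_apply, Pi.zero_apply] at this
      rw [← this, mulVec, dotProduct,
        ← Fintype.sum_subtype_add_sum_subtype (fun j => s < g j) (fun j => H k j * y' j)]
      have z : ∑ j : {j // ¬ s < g j}, H k j * y' j = 0 :=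
        Finset.sum_eq_zero fun j _ => by simp [y', j.2]
      rw [z, add_zero]
      exact Finset.sum_congr rfl fun j _ => by simp [y', j.2]
    have h2 := (Complex.le_def.mp (h1.dotProduct_mulVec_nonneg y')).1
    rw [sub_mulVec, dotProduct_sub, smul_mulVec, dotProduct_smul, ← mulVec_mulVec, ← mulVec_mulVec,
      dotProduct_mulVec, ← star_mulVec, Complex.sub_re, smul_eq_mul, Complex.re_ofReal_mul,
      quad_dg, quad_dg] at h2
    have a1 : ∑ k, (μ k - m) * Complex.normSq ((H *ᵥ y') k) ≤ 0 := by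
      refine Finset.sum_nonpos fun k _ => ?_
      by_cases hk : m < μ k
      · simp [hy' k hk]
      · exact mul_nonpos_of_nonpos_of_nonneg (by linarith) (Complex.normSq_nonneg _)
    have a2 : ∀ j ∈ Finset.univ, 0 ≤ (g j - s) * Complex.normSq (y' j) := by
      intro j _
      by_cases hj : s < g j
      · exact mul_nonneg (by linarith) (Complex.normSq_nonneg _)
      · simp [y', hj]
    have a3 : ∑ j, (g j - s) * Complex.normSq (y' j) = 0 := by
      have := Finset.sum_nonneg a2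
      simp only [Complex.zero_re] at h2
      nlinarith
    ext j
    have := (Finset.sum_eq_zero_iff_of_nonneg a2).mp a3 j.1 (Finset.mem_univ _)
    have hj := j.2
    rcases mul_eq_zero.mp this with h | h
    · linarith
    · simpa [y', hj] using h
  simpa using LinearMap.finrank_le_finrank_of_injective hL

end Vale.Agent.P358
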