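import Mathlib

namespace Vale.Agent.P358
open scoped ComplexOrder

/-- von Neumann entropy in bits: the sum of `-x log x` over the eigenvalues, divided by `log 2`
(only used on Hermitian matrices). -/
noncomputable def vnEntropy {ι : Type} [Fintype ι] [DecidableEq ι] (ρ : Matrix ι ι ℂ) : ℝ :=
  if h : ρ.IsHermitian then (∑ i, Real.negMulLog (h.eigenvalues i)) / Real.log 2 else 0

/-- density matrices -/
def IsDensity {ι : Type} [Fintype ι] (ρ : Matrix ι ι ℂ) : Prop :=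
  ρ.PosSemidef ∧ ρ.trace = 1

/-- the Holevo quantities of all finite ensembles of input states -/
def holevoValues {ι : Type} [Fintype ι] [DecidableEq ι] (N : Matrix ι ι ℂ → Matrix ι ι ℂ) :
    Set ℝ :=
  {v | ∃ (m : ℕ) (p : Fin m → ℝ) (ρ : Fin m → Matrix ι ι ℂ), (∀ a, 0 ≤ p a) ∧ ∑ a, p a = 1 ∧
    (∀ a, IsDensity (ρ a)) ∧
    v = vnEntropy (∑ a, (p a : ℂ) • N (ρ a)) - ∑ a, p a * vnEntropy (N (ρ a))}

/-- Holevo capacity -/
noncomputable def holevo {ι : Type} [Fintype ι] [DecidableEq ι]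
    (N : Matrix ι ι ℂ → Matrix ι ι ℂ) : ℝ :=
  sSup (holevoValues N)

/-- the generalized amplitude-damping channel, written linearly in the matrix entries -/
noncomputable def gad (γ ν : ℝ) (ρ : Matrix (Fin 2) (Fin 2) ℂ) : Matrix (Fin 2) (Fin 2) ℂ :=
  !![ρ 0 0 + ρ 1 1 - (((1 - γ : ℝ) : ℂ) * ρ 1 1 + ((γ * ν : ℝ) : ℂ) * (ρ 0 0 + ρ 1 1)),
      ((√(1 - γ) : ℝ) : ℂ) * ρ 0 1;
    ((√(1 - γ) : ℝ) : ℂ) * ρ 1 0,
      ((1 - γ : ℝ) : ℂ) * ρ 1 1 + ((γ * ν : ℝ) : ℂ) * (ρ 0 0 + ρ 1 1)]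

/-- the `n`-fold tensor power of a linear qubit map: the linear map sending the matrix unit
`E_{k_1 l_1} ⊗ ... ⊗ E_{k_n l_n}` to `Φ(E_{k_1 l_1}) ⊗ ... ⊗ Φ(E_{k_n l_n})` -/
noncomputable def tensorPow (Φ : Matrix (Fin 2) (Fin 2) ℂ → Matrix (Fin 2) (Fin 2) ℂ) (n : ℕ)
    (ρ : Matrix (Fin n → Fin 2) (Fin n → Fin 2) ℂ) : Matrix (Fin n → Fin 2) (Fin n → Fin 2) ℂ :=
  Matrix.of fun i j => ∑ k, ∑ l, (∏ t, Φ (Matrix.single (k t) (l t) 1) (i t) (j t)) * ρ k l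

/-- the values `χ(Φ^{⊗n}) / n`, `n ≥ 1` -/
def rates (Φ : Matrix (Fin 2) (Fin 2) ℂ → Matrix (Fin 2) (Fin 2) ℂ) : Set ℝ :=
  {c | ∃ n : ℕ, 1 ≤ n ∧ c = holevo (tensorPow Φ n) / n}

/-- classical capacity (regularized Holevo capacity) -/
noncomputable def capacity (Φ : Matrix (Fin 2) (Fin 2) ℂ → Matrix (Fin 2) (Fin 2) ℂ) : ℝ :=
  sSup (rates Φ)

/-- the one-parameter objective, in bits -/
noncomputable def objective (γ ν q : ℝ) : ℝ :=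
  (Real.binEntropy ((1 - γ) * q + γ * ν) -
    Real.binEntropy ((1 + √((1 - 2 * ((1 - γ) * q + γ * ν)) ^ 2 + 4 * (1 - γ) * q * (1 - q))) / 2))
    / Real.log 2

end Vale.Agent.P358
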