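import Vale.Agent.P358.Ent
import Vale.Agent.P358.Defs

set_option linter.unusedSectionVars false

namespace Vale.Agent.P358
open Matrix Set
open scoped ComplexOrder MatrixOrder

section general
variable (Φ : Matrix (Fin 2) (Fin 2) ℂ → Matrix (Fin 2) (Fin 2) ℂ)

lemma tp_add (n : ℕ) (ρ σ : Matrix (Fin n → Fin 2) (Fin n → Fin 2) ℂ) :
    tensorPow Φ n (ρ + σ) = tensorPow Φ n ρ + tensorPow Φ n σ := by
  ext i j; simp [tensorPow, mul_add, Finset.sum_add_distrib]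

lemma tp_smul (n : ℕ) (c : ℂ) (ρ : Matrix (Fin n → Fin 2) (Fin n → Fin 2) ℂ) :
    tensorPow Φ n (c • ρ) = c • tensorPow Φ n ρ := by
  ext i j; simp [tensorPow, Finset.mul_sum, mul_left_comm]

lemma tp_sum (n : ℕ) {ι : Type*} (s : Finset ι)
    (ρ : ι → Matrix (Fin n → Fin 2) (Fin n → Fin 2) ℂ) :
    tensorPow Φ n (∑ a ∈ s, ρ a) = ∑ a ∈ s, tensorPow Φ n (ρ a) := by
  classical
  induction s using Finset.induction_on with
  | empty => ext i j; simp [tensorPow]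
  | insert a s ha ih => rw [Finset.sum_insert ha, Finset.sum_insert ha, tp_add, ih]

lemma tp_kraus (Kr : Fin 4 → Matrix (Fin 2) (Fin 2) ℂ)
    (hK : ∀ k l i j, Φ (Matrix.single k l 1) i j = ∑ κ, Kr κ i k * star (Kr κ j l)) (n : ℕ)
    (ρ : Matrix (Fin n → Fin 2) (Fin n → Fin 2) ℂ) :
    tensorPow Φ n ρ = ∑ κ : Fin n → Fin 4,
      (Matrix.of fun i k : Fin n → Fin 2 => ∏ t, Kr (κ t) (i t) (k t)) * ρ *
        (Matrix.of fun i k : Fin n → Fin 2 => ∏ t, Kr (κ t) (i t) (k t))ᴴ := by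
  ext i j
  simp only [tensorPow, of_apply, hK, Matrix.sum_apply, Matrix.mul_apply, conjTranspose_apply,
    Finset.prod_univ_sum, Fintype.piFinset_univ, Finset.sum_mul, star_prod]
  rw [Finset.sum_comm]
  conv_rhs => rw [Finset.sum_comm]
  refine Finset.sum_congr rfl fun l _ => ?_
  rw [Finset.sum_comm]
  refine Finset.sum_congr rfl fun κ _ => Finset.sum_congr rfl fun k _ => ?_
  rw [Finset.prod_mul_distrib]
  ring

/-- splitting off the first qubit -/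
def spl (n : ℕ) : (Fin n → Fin 2) ⊕ (Fin n → Fin 2) ≃ (Fin (n + 1) → Fin 2) where
  toFun := Sum.elim (fun f => Fin.cons 0 f) (fun f => Fin.cons 1 f)
  invFun g := if g 0 = 0 then Sum.inl (Fin.tail g) else Sum.inr (Fin.tail g)
  left_inv := by rintro (f | f) <;> simp
  right_inv := by
    intro g
    by_cases h : g 0 = 0
    · simp only [h, if_true, Sum.elim_inl]
      rw [← h]; exact Fin.cons_self_tail g
    · have h1 : g 0 = 1 := by omega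
      simp only [h, if_false, Sum.elim_inr]
      rw [← h1]; exact Fin.cons_self_tail g

/-- block of a matrix -/
def blk {n : ℕ} (ρ : Matrix (Fin (n + 1) → Fin 2) (Fin (n + 1) → Fin 2) ℂ) (a b : Fin 2) :
    Matrix (Fin n → Fin 2) (Fin n → Fin 2) ℂ :=
  ρ.submatrix (fun f => Fin.cons a f) (fun f => Fin.cons b f)

lemma spl_sub {n : ℕ} (ρ : Matrix (Fin (n + 1) → Fin 2) (Fin (n + 1) → Fin 2) ℂ) :
    ρ.submatrix (spl n) (spl n) = fromBlocks (blk ρ 0 0) (blk ρ 0 1) (blk ρ 1 0) (blk ρ 1 1) := by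
  ext (i | i) (j | j) <;> rfl

lemma blk_tp {n : ℕ} (ρ : Matrix (Fin (n + 1) → Fin 2) (Fin (n + 1) → Fin 2) ℂ) (i j : Fin 2) :
    blk (tensorPow Φ (n + 1) ρ) i j =
      Φ (single 0 0 1) i j • tensorPow Φ n (blk ρ 0 0) +
      Φ (single 0 1 1) i j • tensorPow Φ n (blk ρ 0 1) +
      Φ (single 1 0 1) i j • tensorPow Φ n (blk ρ 1 0) +
      Φ (single 1 1 1) i j • tensorPow Φ n (blk ρ 1 1) := by
  ext f g
  simp only [blk, tensorPow, submatrix_apply, of_apply, Matrix.add_apply, Matrix.smul_apply,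
    smul_eq_mul]
  simp only [← (spl n).sum_comp, Fintype.sum_sum_type, Finset.sum_add_distrib, Fin.prod_univ_succ,
    Finset.mul_sum]
  simp [spl, mul_assoc, add_assoc]
  rw [add_left_comm]

lemma trace_blk {n : ℕ} (ρ : Matrix (Fin (n + 1) → Fin 2) (Fin (n + 1) → Fin 2) ℂ) :
    ρ.trace = (blk ρ 0 0).trace + (blk ρ 1 1).trace := by
  rw [← trace_blocks _ (blk ρ 0 1) (blk ρ 1 0), ← spl_sub]
  exact ((spl n).sum_comp fun i => ρ i i).symm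

lemma blk_sum {n : ℕ} {ι : Type*} [Fintype ι]
    (ρ : ι → Matrix (Fin (n + 1) → Fin 2) (Fin (n + 1) → Fin 2) ℂ) (a b : Fin 2) :
    blk (∑ i, ρ i) a b = ∑ i, blk (ρ i) a b := by
  ext f g; simp [blk, Matrix.sum_apply]

end general

lemma exists_pqr {γ ν : ℝ} (hγ : γ ∈ Icc (0 : ℝ) 1) (hν : ν ∈ Icc (0 : ℝ) 1) :
    ∃ p q r : ℝ, p ^ 2 + γ * ν = 1 ∧ γ * (1 - ν) + (q ^ 2 + r ^ 2) = 1 ∧
      p ^ 2 * r ^ 2 = γ * (1 - ν) * (γ * ν) ∧ p * q = √(1 - γ) := by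
  have h1 : γ * ν ≤ γ := by nlinarith [hγ.1, hν.2]
  have h2 : 0 ≤ 1 - γ := by linarith [hγ.2]
  have h3 : 0 ≤ γ * (1 - ν) * (γ * ν) :=
    mul_nonneg (mul_nonneg hγ.1 (by linarith [hν.2])) (mul_nonneg hγ.1 hν.1)
  rcases (show 0 ≤ 1 - γ * ν by linarith).eq_or_lt with h | h
  · have g1 : γ = 1 := by linarith [hγ.2]
    have g2 : ν = 1 := by rw [g1] at h; linarith
    exact ⟨0, 0, 1, by simp [g1, g2], by simp [g2], by simp [g2], by simp [g1]⟩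
  · have s := Real.sqrt_pos.mpr h
    refine ⟨√(1 - γ * ν), √(1 - γ) / √(1 - γ * ν), √(γ * (1 - ν) * (γ * ν)) / √(1 - γ * ν),
      ?_, ?_, ?_, ?_⟩
    · rw [Real.sq_sqrt h.le]; ring
    · rw [div_pow, div_pow, Real.sq_sqrt h.le, Real.sq_sqrt h2, Real.sq_sqrt h3]
      field_simp; ring
    · rw [div_pow, Real.sq_sqrt h.le, Real.sq_sqrt h3]; field_simp
    · field_simp

section gad
variable {γ ν p q r : ℝ} (hγ : γ ∈ Icc (0 : ℝ) 1) (hν : ν ∈ Icc (0 : ℝ) 1)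
  (h1 : p ^ 2 + γ * ν = 1) (h2 : γ * (1 - ν) + (q ^ 2 + r ^ 2) = 1) (h4 : p * q = √(1 - γ))
include h1 h2 h4

lemma gad_units :
    gad γ ν (single 0 0 1) = !![((p ^ 2 : ℝ) : ℂ), 0; 0, ((γ * ν : ℝ) : ℂ)] ∧
    gad γ ν (single 0 1 1) = !![0, ((p * q : ℝ) : ℂ); 0, 0] ∧
    gad γ ν (single 1 0 1) = !![0, 0; ((p * q : ℝ) : ℂ), 0] ∧
    gad γ ν (single 1 1 1) = !![((γ * (1 - ν) : ℝ) : ℂ), 0; 0, ((q ^ 2 + r ^ 2 : ℝ) : ℂ)] := by
  have e1 : p ^ 2 = 1 - γ * ν := by linarith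
  have e2 : q ^ 2 + r ^ 2 = 1 - γ * (1 - ν) := by linarith
  rw [e1, e2, h4]
  refine ⟨?_, ?_, ?_, ?_⟩ <;> ext i j <;> fin_cases i <;> fin_cases j <;> simp [gad] <;> ring

lemma tp_blocks {n : ℕ} (ρ : Matrix (Fin (n + 1) → Fin 2) (Fin (n + 1) → Fin 2) ℂ) :
    (tensorPow (gad γ ν) (n + 1) ρ).submatrix (spl n) (spl n) =
      fromBlocks (((p ^ 2 : ℝ) : ℂ) • tensorPow (gad γ ν) n (blk ρ 0 0) +
          ((γ * (1 - ν) : ℝ) : ℂ) • tensorPow (gad γ ν) n (blk ρ 1 1))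
        (((p * q : ℝ) : ℂ) • tensorPow (gad γ ν) n (blk ρ 0 1))
        (((p * q : ℝ) : ℂ) • tensorPow (gad γ ν) n (blk ρ 1 0))
        (((γ * ν : ℝ) : ℂ) • tensorPow (gad γ ν) n (blk ρ 0 0) +
          ((q ^ 2 + r ^ 2 : ℝ) : ℂ) • tensorPow (gad γ ν) n (blk ρ 1 1)) := by
  obtain ⟨u1, u2, u3, u4⟩ := gad_units h1 h2 h4
  rw [spl_sub, blk_tp, blk_tp, blk_tp, blk_tp, u1, u2, u3, u4]
  simp

lemma tp_trace (n : ℕ) (ρ : Matrix (Fin n → Fin 2) (Fin n → Fin 2) ℂ) :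
    (tensorPow (gad γ ν) n ρ).trace = ρ.trace := by
  induction n with
  | zero => simp [tensorPow, trace]
  | succ n ih =>
    have := congrArg trace (tp_blocks h1 h2 h4 ρ)
    rw [trace_blocks, spl_sub, trace_blocks, ← trace_blk] at this
    rw [this, trace_blk ρ]
    simp only [trace_add, trace_smul, ih, smul_eq_mul]
    have e1 : ((p ^ 2 : ℝ) : ℂ) + ((γ * ν : ℝ) : ℂ) = 1 := by exact_mod_cast h1
    have e2 : ((γ * (1 - ν) : ℝ) : ℂ) + ((q ^ 2 + r ^ 2 : ℝ) : ℂ) = 1 := by exact_mod_cast h2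
    linear_combination (blk ρ 0 0).trace * e1 + (blk ρ 1 1).trace * e2

include hγ hν

lemma gad_kraus : ∃ Kr : Fin 4 → Matrix (Fin 2) (Fin 2) ℂ,
    ∀ k l i j, gad γ ν (Matrix.single k l 1) i j = ∑ κ, Kr κ i k * star (Kr κ j l) := by
  obtain ⟨u1, u2, u3, u4⟩ := gad_units h1 h2 h4
  have b0 : 0 ≤ γ * (1 - ν) := mul_nonneg hγ.1 (by linarith [hν.2])
  have c0 : 0 ≤ γ * ν := mul_nonneg hγ.1 hν.1
  obtain ⟨β, hβ⟩ : ∃ β : ℝ, γ * (1 - ν) = β ^ 2 := ⟨_, (Real.sq_sqrt b0).symm⟩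
  obtain ⟨ζ, hζ⟩ : ∃ β : ℝ, γ * ν = β ^ 2 := ⟨_, (Real.sq_sqrt c0).symm⟩
  rw [hβ] at u4
  rw [hζ] at u1
  refine ⟨![!![(p : ℂ), 0; 0, (q : ℂ)], !![0, (β : ℂ); 0, 0], !![0, 0; (ζ : ℂ), 0],
    !![0, 0; 0, (r : ℂ)]], ?_⟩
  intro k l i j
  fin_cases k <;> fin_cases l <;> simp only [Fin.zero_eta, Fin.mk_one, u1, u2, u3, u4] <;>
    fin_cases i <;> fin_cases j <;> simp [Fin.sum_univ_four, sq, mul_comm]

lemma tp_psd (n : ℕ) {ρ : Matrix (Fin n → Fin 2) (Fin n → Fin 2) ℂ} (h : ρ.PosSemidef) :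
    (tensorPow (gad γ ν) n ρ).PosSemidef := by
  obtain ⟨Kr, hK⟩ := gad_kraus hγ hν h1 h2 h4
  rw [tp_kraus _ Kr hK]
  exact posSemidef_sum _ fun κ _ => h.mul_mul_conjTranspose_same _

lemma tp_cp (n : ℕ) {A B C D : Matrix (Fin n → Fin 2) (Fin n → Fin 2) ℂ}
    (h : (fromBlocks A B C D).PosSemidef) :
    (fromBlocks (tensorPow (gad γ ν) n A) (tensorPow (gad γ ν) n B) (tensorPow (gad γ ν) n C)
      (tensorPow (gad γ ν) n D)).PosSemidef := by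
  obtain ⟨Kr, hK⟩ := gad_kraus hγ hν h1 h2 h4
  simp only [tp_kraus _ Kr hK]
  have := posSemidef_sum Finset.univ fun (κ : Fin n → Fin 4) _ => h.mul_mul_conjTranspose_same
    (fromBlocks (Matrix.of fun i k : Fin n → Fin 2 => ∏ t, Kr (κ t) (i t) (k t)) 0 0
      (Matrix.of fun i k : Fin n → Fin 2 => ∏ t, Kr (κ t) (i t) (k t)))
  simp only [fromBlocks_conjTranspose, fromBlocks_multiply, conjTranspose_zero, Matrix.zero_mul,
    Matrix.mul_zero, add_zero, zero_add] at this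
  convert this using 1
  ext (i | i) (j | j) <;> simp [Matrix.sum_apply]

end gad

end Vale.Agent.P358
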