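import Mathlib

namespace Vale.Agent.P358
open Set

lemma sinh_ratio {u v : ℝ} (hu : 0 < u) (huv : u ≤ v) : v / Real.sinh v ≤ u / Real.sinh u := by
  have hv := hu.trans_le huv
  have hc : ConvexOn ℝ (Ici 0) Real.sinh := by
    refine MonotoneOn.convexOn_of_deriv (convex_Ici 0) Real.continuous_sinh.continuousOn
      Real.differentiable_sinh.differentiableOn ?_
    rw [Real.deriv_sinh, interior_Ici]
    intro a ha b hb hab
    rw [Real.cosh_le_cosh, abs_of_pos ha, abs_of_pos hb]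
    exact hab
  have h := hc.2 (mem_Ici.mpr hv.le) (mem_Ici.mpr le_rfl) (show 0 ≤ u / v by positivity)
    (show 0 ≤ 1 - u / v by rw [sub_nonneg, div_le_one hv]; exact huv) (by ring)
  simp only [smul_eq_mul, mul_zero, add_zero, Real.sinh_zero, div_mul_cancel₀ u hv.ne'] at h
  have s1 := Real.sinh_pos_iff.mpr hu
  have s2 := Real.sinh_pos_iff.mpr hv
  rw [div_le_div_iff₀ s2 s1]
  rw [div_mul_eq_mul_div, le_div_iff₀ hv] at h
  linarith

/-- entropy as a function of the concurrence -/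
noncomputable def Ef (C : ℝ) : ℝ := Real.binEntropy ((1 + √(1 - C ^ 2)) / 2)

lemma Ef_deriv {C : ℝ} (hC : C ∈ Ioo (0 : ℝ) 1) :
    HasDerivAt Ef (Real.artanh √(1 - C ^ 2) / Real.sinh (Real.artanh √(1 - C ^ 2))) C := by
  have h0 : 0 < 1 - C ^ 2 := by nlinarith [hC.1, hC.2]
  have r0 : 0 < √(1 - C ^ 2) := Real.sqrt_pos.mpr h0
  have r1 : √(1 - C ^ 2) < 1 := by
    rw [Real.sqrt_lt' one_pos]; nlinarith [hC.1]
  have d1 : HasDerivAt (fun C : ℝ => 1 - C ^ 2) (-(2 * C)) C := by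
    simpa using (hasDerivAt_pow 2 C).const_sub 1
  have d2 := ((d1.sqrt h0.ne').const_add 1).div_const 2
  have d3 := (Real.hasDerivAt_binEntropy (p := (1 + √(1 - C ^ 2)) / 2) (by linarith)
    (by linarith)).comp C d2
  refine HasDerivAt.congr_deriv d3 (Eq.symm ?_)
  have e : 1 - √(1 - C ^ 2) ^ 2 = C ^ 2 := by rw [Real.sq_sqrt h0.le]; ring
  rw [Real.sinh_artanh ⟨by linarith, r1⟩, e, Real.sqrt_sq hC.1.le,
    Real.artanh_eq_half_log ⟨by linarith, r1.le⟩, Real.log_div (by linarith) (by linarith)]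
  have e2 : 1 - (1 + √(1 - C ^ 2)) / 2 = (1 - √(1 - C ^ 2)) / 2 := by ring
  rw [e2, Real.log_div (by linarith) (by norm_num), Real.log_div (by linarith) (by norm_num)]
  have := hC.1
  field_simp
  ring

lemma Ef_cont : Continuous Ef := by
  unfold Ef
  exact Real.binEntropy_continuous.comp (by fun_prop)

lemma Ef_convex : ConvexOn ℝ (Icc 0 1) Ef := by
  refine MonotoneOn.convexOn_of_deriv (convex_Icc 0 1) Ef_cont.continuousOn ?_ ?_
  · rw [interior_Icc]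
    exact fun C hC => (Ef_deriv hC).differentiableAt.differentiableWithinAt
  · rw [interior_Icc]
    intro C hC D hD hCD
    rw [(Ef_deriv hC).deriv, (Ef_deriv hD).deriv]
    have h0 : 0 < 1 - D ^ 2 := by nlinarith [hD.1, hD.2]
    have r0 : 0 < √(1 - D ^ 2) := Real.sqrt_pos.mpr h0
    have r1 : √(1 - C ^ 2) < 1 := by
      rw [Real.sqrt_lt' one_pos]; nlinarith [hC.1]
    have r2 : √(1 - D ^ 2) ≤ √(1 - C ^ 2) := Real.sqrt_le_sqrt (by nlinarith [hC.1, hD.1])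
    exact sinh_ratio (Real.artanh_pos ⟨r0, r2.trans_lt r1⟩)
      (Real.artanh_le_artanh (by linarith) r1 r2)

lemma Ef_mono : MonotoneOn Ef (Icc 0 1) := by
  intro C hC D hD hCD
  have r2 : √(1 - D ^ 2) ≤ √(1 - C ^ 2) := Real.sqrt_le_sqrt (by nlinarith [hC.1, hD.1])
  have r1 : ∀ C : ℝ, √(1 - C ^ 2) ≤ 1 := fun C => Real.sqrt_le_one.mpr (by nlinarith)
  have r0 : ∀ C : ℝ, 0 ≤ √(1 - C ^ 2) := fun C => Real.sqrt_nonneg _
  unfold Ef
  refine Real.binEntropy_strictAntiOn.antitoneOn ⟨?_, ?_⟩ ⟨?_, ?_⟩ (by linarith)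
  · linarith [r0 D]
  · linarith [r1 D]
  · linarith [r0 C]
  · linarith [r1 C]

/-- output excited population -/
noncomputable def tq (γ ν q : ℝ) : ℝ := (1 - γ) * q + γ * ν

/-- larger eigenvalue of the output of a pure state -/
noncomputable def mu (γ ν q : ℝ) : ℝ :=
  (1 + √((1 - 2 * tq γ ν q) ^ 2 + 4 * (1 - γ) * q * (1 - q))) / 2

/-- concurrence -/
noncomputable def Cq (γ ν q : ℝ) : ℝ :=
  ‖((2 * √(γ * ν * (1 - ν)) : ℝ) : ℂ) + ((2 * √((1 - γ) * γ) * (q - ν) : ℝ) : ℂ) * Complex.I‖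

section
variable {γ ν : ℝ} (hγ : γ ∈ Icc (0 : ℝ) 1) (hν : ν ∈ Icc (0 : ℝ) 1)
include hγ hν

lemma Cq_sq (q : ℝ) :
    1 - Cq γ ν q ^ 2 = (1 - 2 * tq γ ν q) ^ 2 + 4 * (1 - γ) * q * (1 - q) := by
  have h1 : 0 ≤ γ * ν * (1 - ν) := mul_nonneg (mul_nonneg hγ.1 hν.1) (by linarith [hν.2])
  have h2 : 0 ≤ (1 - γ) * γ := mul_nonneg (by linarith [hγ.2]) hγ.1
  rw [Cq, Complex.sq_norm, Complex.normSq_add_mul_I, mul_pow, mul_pow, mul_pow, Real.sq_sqrt h1,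
    Real.sq_sqrt h2, tq]
  ring

lemma Cq_mem {q : ℝ} (hq : q ∈ Icc (0 : ℝ) 1) : Cq γ ν q ∈ Icc (0 : ℝ) 1 := by
  have h0 : 0 ≤ Cq γ ν q := norm_nonneg _
  refine ⟨h0, ?_⟩
  have := Cq_sq hγ hν q
  have h3 : 0 ≤ 4 * (1 - γ) * q * (1 - q) :=
    mul_nonneg (mul_nonneg (by linarith [hγ.2]) hq.1) (by linarith [hq.2])
  nlinarith [sq_nonneg (1 - 2 * tq γ ν q)]

lemma mu_eq (q : ℝ) : Real.binEntropy (mu γ ν q) = Ef (Cq γ ν q) := by
  rw [Ef, Cq_sq hγ hν, mu]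

lemma mu_mem {q : ℝ} (hq : q ∈ Icc (0 : ℝ) 1) : mu γ ν q ∈ Icc (0 : ℝ) 1 ∧
    mu γ ν q * (1 - mu γ ν q) = tq γ ν q * (1 - tq γ ν q) - (1 - γ) * q * (1 - q) := by
  have h1 := Cq_mem hγ hν hq
  have h2 := Cq_sq hγ hν q
  have h3 : 0 ≤ 1 - Cq γ ν q ^ 2 := by nlinarith [h1.1, h1.2]
  have h4 := Real.sq_sqrt h3
  have h5 : √(1 - Cq γ ν q ^ 2) ≤ 1 := Real.sqrt_le_one.mpr (by nlinarith)
  have h6 := Real.sqrt_nonneg (1 - Cq γ ν q ^ 2)
  unfold mu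
  rw [← h2]
  refine ⟨⟨by linarith, by linarith⟩, by nlinarith⟩

lemma f_jensen {ι : Type*} [Fintype ι] (p q : ι → ℝ) (hp : ∀ a, 0 ≤ p a) (hp1 : ∑ a, p a = 1)
    (hq : ∀ a, q a ∈ Icc (0 : ℝ) 1) :
    Real.binEntropy (mu γ ν (∑ a, p a * q a)) ≤ ∑ a, p a * Real.binEntropy (mu γ ν (q a)) := by
  simp only [mu_eq hγ hν]
  have hm := (convex_Icc (0 : ℝ) 1).sum_mem (t := Finset.univ) (fun a _ => hp a) hp1
    (fun a _ => hq a)
  have hm2 := (convex_Icc (0 : ℝ) 1).sum_mem (t := Finset.univ) (fun a _ => hp a) hp1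
    (fun a _ => Cq_mem hγ hν (hq a))
  have j := Ef_convex.map_sum_le (t := Finset.univ) (fun a _ => hp a) hp1
    (fun a _ => Cq_mem hγ hν (hq a))
  simp only [smul_eq_mul] at hm hm2 j
  refine le_trans (Ef_mono (Cq_mem hγ hν hm) hm2 ?_) j
  unfold Cq
  have e : ((2 * √(γ * ν * (1 - ν)) : ℝ) : ℂ) +
      ((2 * √((1 - γ) * γ) * (∑ a, p a * q a - ν) : ℝ) : ℂ) * Complex.I =
      ∑ a, (p a : ℂ) * (((2 * √(γ * ν * (1 - ν)) : ℝ) : ℂ) +
        ((2 * √((1 - γ) * γ) * (q a - ν) : ℝ) : ℂ) * Complex.I) := by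
    have h1 : ∑ a, (p a : ℂ) = 1 := by exact_mod_cast hp1
    have h2 : ∑ a, p a * q a - ν = ∑ a, p a * (q a - ν) := by
      simp only [mul_sub, Finset.sum_sub_distrib, ← Finset.sum_mul, hp1, one_mul]
    rw [h2]
    simp only [mul_add, Finset.sum_add_distrib, ← Finset.sum_mul, h1, one_mul]
    congr 1
    push_cast
    rw [Finset.mul_sum, Finset.sum_mul]
    exact Finset.sum_congr rfl fun a _ => by ring
  rw [e]
  refine (norm_sum_le _ _).trans (le_of_eq (Finset.sum_congr rfl fun a _ => ?_))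
  rw [norm_mul, Complex.norm_real, Real.norm_of_nonneg (hp a)]

end

end Vale.Agent.P358
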