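import Vale.Agent.P358.Star
import Vale.Agent.P358.Convex

set_option linter.unusedSectionVars false

namespace Vale.Agent.P358
open Matrix
open scoped ComplexOrder MatrixOrder

variable {K R : Type*} [Fintype K] [DecidableEq K] [Fintype R] [DecidableEq R]

lemma tf_submatrix (f : ℝ → ℝ) {W : Matrix R R ℂ} (hW : W.IsHermitian) (e : K ≃ R) :
    tf f (W.submatrix e e) = tf f W := by
  obtain ⟨U, d, h1, -, rfl⟩ := spec hW
  have : (U * dg d * Uᴴ).submatrix e e =
      U.submatrix e e * dg (fun k => d (e k)) * (U.submatrix e e)ᴴ := by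
    have : dg (fun k => d (e k)) = (dg d).submatrix e e := by
      rw [dg, dg, submatrix_diagonal_equiv]; rfl
    rw [this, conjTranspose_submatrix, submatrix_mul_equiv, submatrix_mul_equiv]
  rw [this, tf_eq f h1, tf_eq f (by
    rw [conjTranspose_submatrix, submatrix_mul_equiv, h1, submatrix_one_equiv])]
  exact Equiv.sum_comp e fun i => f (d i)

lemma bd_unit {V : Matrix R R ℂ} (h : Vᴴ * V = 1) :
    (fromBlocks V 0 0 V)ᴴ * fromBlocks V 0 0 V = 1 := by
  simp [fromBlocks_conjTranspose, fromBlocks_multiply, h]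

lemma tf_bd (f : ℝ → ℝ) {V : Matrix R R ℂ} (h : Vᴴ * V = 1) (d e : R → ℝ) :
    tf f (fromBlocks (V * dg d * Vᴴ) 0 0 (V * dg e * Vᴴ)) = ∑ k, f (d k) + ∑ k, f (e k) := by
  have : fromBlocks (V * dg d * Vᴴ) 0 0 (V * dg e * Vᴴ) =
      fromBlocks V 0 0 V * dg (Sum.elim d e) * (fromBlocks V 0 0 V)ᴴ := by
    have : dg (Sum.elim d e) = fromBlocks (dg d) 0 0 (dg e) := by
      rw [dg, dg, dg, fromBlocks_diagonal]
      congr 1
      ext (i | i) <;> simp
    rw [this]
    simp [fromBlocks_conjTranspose, fromBlocks_multiply]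
  rw [this, tf_eq f (bd_unit h), Fintype.sum_sum_type]
  simp

lemma tf_zero : tf Real.negMulLog (0 : Matrix R R ℂ) = 0 := by
  have := tf_eq Real.negMulLog (U := (1 : Matrix R R ℂ)) (by simp) (fun _ => 0)
  simpa [dg] using this

lemma ent_smul {W : Matrix R R ℂ} (hW : W.IsHermitian) (c : ℝ) :
    tf Real.negMulLog ((c : ℂ) • W) = c * tf Real.negMulLog W + Real.negMulLog c * W.trace.re := by
  obtain ⟨U, d, h1, -, rfl⟩ := spec hW
  rw [smul_spec, tf_eq _ h1, tf_eq _ h1, trace_spec h1]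
  simp only [Real.negMulLog_mul, Finset.sum_add_distrib, ← Finset.sum_mul, ← Finset.mul_sum]
  ring

lemma star_deg {b d : ℝ} (hbd : b + d = 1) {Z : Matrix R R ℂ} (hZ : Z.IsHermitian) {z l1 l2 : ℝ}
    (hz : Z.trace.re = z) (hs : l1 + l2 = z) (hp : l1 * l2 = b * d * z ^ 2) :
    tf Real.negMulLog Z - Real.negMulLog z + Real.negMulLog l1 + Real.negMulLog l2 =
      tf Real.negMulLog (fromBlocks ((b : ℂ) • Z) 0 0 ((d : ℂ) • Z)) := by
  obtain ⟨U, e, h1, -, rfl⟩ := spec hZ
  rw [trace_spec h1] at hz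
  rw [smul_spec, smul_spec, tf_bd _ h1, tf_eq _ h1]
  have h : (l1 - b * z) * (l1 - d * z) = 0 := by
    linear_combination l1 * hs - hp - l1 * z * hbd
  have : Real.negMulLog l1 + Real.negMulLog l2 =
      Real.negMulLog (b * z) + Real.negMulLog (d * z) := by
    rcases mul_eq_zero.mp h with h | h
    · rw [show l1 = b * z by linarith, show l2 = d * z by linear_combination hs - h - z * hbd]
    · rw [show l1 = d * z by linarith, show l2 = b * z by linear_combination hs - h - z * hbd,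
        add_comm]
  simp only [Real.negMulLog_mul, Finset.sum_add_distrib, ← Finset.sum_mul, ← Finset.mul_sum,
    hz] at this ⊢
  linear_combination this - (∑ i, Real.negMulLog (e i) - Real.negMulLog z) * hbd

lemma star_all (p q r : ℝ) {b c : ℝ} (hb : 0 ≤ b) (hc : 0 ≤ c) (hac : p ^ 2 + c = 1)
    (hbd : b + (q ^ 2 + r ^ 2) = 1) (he : p ^ 2 * r ^ 2 = b * c) {X Y Y' Z : Matrix R R ℂ}
    (hM : (fromBlocks X Y Y' Z).PosSemidef) {x z : ℝ}
    (hxe : X.trace.re = x) (hze : Z.trace.re = z)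
    {l1 l2 : ℝ} (h1 : 0 ≤ l1) (h2 : 0 ≤ l2) (hs : l1 + l2 = x + z)
    (hp : l1 * l2 = p ^ 2 * c * x ^ 2 + 2 * b * c * x * z + b * (q ^ 2 + r ^ 2) * z ^ 2) :
    tf Real.negMulLog X - Real.negMulLog x + (tf Real.negMulLog Z -
      Real.negMulLog z) + Real.negMulLog l1 + Real.negMulLog l2 ≤
      tf Real.negMulLog (fromBlocks (((p ^ 2 : ℝ) : ℂ) • X + (b : ℂ) • Z)
        (((p * q : ℝ) : ℂ) • Y) (((p * q : ℝ) : ℂ) • Y')
        ((c : ℂ) • X + ((q ^ 2 + r ^ 2 : ℝ) : ℂ) • Z)) := by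
  obtain ⟨C, hC⟩ := psd_factor hM
  obtain ⟨X0, Z0, hT⟩ : ∃ X0 Z0 : Matrix R (R ⊕ R) ℂ, Cᴴ = fromRows X0 Z0 :=
    ⟨_, _, (fromRows_toRows _).symm⟩
  have hC' : C = (fromRows X0 Z0)ᴴ := by rw [← hT, conjTranspose_conjTranspose]
  rw [hT, hC', conjTranspose_fromRows_eq_fromCols_conjTranspose, fromRows_mul_fromCols,
    fromBlocks_inj] at hC
  obtain ⟨rfl, rfl, rfl, rfl⟩ := hC
  have hX := posSemidef_self_mul_conjTranspose X0
  have hZ := posSemidef_self_mul_conjTranspose Z0
  have z0 : ∀ A : Matrix R (R ⊕ R) ℂ, (A * Aᴴ).trace.re = 0 → A = 0 := by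
    intro A hA
    have := (Complex.le_def.mp (posSemidef_self_mul_conjTranspose A).trace_nonneg).2
    exact trace_mul_conjTranspose_self_eq_zero_iff.mp (Complex.ext hA this.symm)
  have hx : 0 ≤ x := hxe ▸ (Complex.le_def.mp hX.trace_nonneg).1
  have hz : 0 ≤ z := hze ▸ (Complex.le_def.mp hZ.trace_nonneg).1
  rcases hx.eq_or_lt with rfl | hx
  · have := z0 X0 hxe
    subst this
    have := star_deg hbd hZ.1 hze (by simpa using hs) (by simpa using hp)
    simp only [Matrix.zero_mul, conjTranspose_zero, Matrix.mul_zero, smul_zero, zero_add, tf_zero,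
      Real.negMulLog_zero, sub_zero]
    exact this.le
  rcases hz.eq_or_lt with rfl | hz
  · have := z0 Z0 hze
    subst this
    have := star_deg hac hX.1 hxe (by simpa using hs) (by simpa using hp)
    simp only [Matrix.zero_mul, conjTranspose_zero, Matrix.mul_zero, smul_zero, add_zero, tf_zero,
      Real.negMulLog_zero, sub_zero]
    exact this.le
  exact star_pos p q r hb hc hac hbd he X0 Z0 hxe hze hx hz h1 h2 hs hp

lemma gibbs {p α r : ℝ} (hp : 0 ≤ p) (h1 : p ≤ α) (h2 : p ≤ r) :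
    Real.negMulLog p + p * Real.log α + p * Real.log r ≤ α * r - p := by
  rcases hp.eq_or_lt with rfl | hp
  · simpa using mul_nonneg h1 h2
  have ha := hp.trans_le h1
  have hr := hp.trans_le h2
  have := Real.log_le_sub_one_of_pos (show 0 < α * r / p by positivity)
  rw [Real.log_div (by positivity) hp.ne', Real.log_mul ha.ne' hr.ne'] at this
  have h3 := mul_le_mul_of_nonneg_left this hp.le
  have e : p * (α * r / p - 1) = α * r - p := by field_simp
  rw [e] at h3
  unfold Real.negMulLog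
  linarith

lemma psd_blocks {P B C Q : Matrix R R ℂ} (h : (fromBlocks P B C Q).PosSemidef) :
    P.PosSemidef ∧ Q.PosSemidef :=
  ⟨h.submatrix Sum.inl, h.submatrix Sum.inr⟩

lemma subadd {P B C Q : Matrix R R ℂ} (h : (fromBlocks P B C Q).PosSemidef) {t : ℝ}
    (hP : P.trace.re = 1 - t) (hQ : Q.trace.re = t) :
    tf Real.negMulLog (fromBlocks P B C Q) ≤ tf Real.negMulLog (P + Q) + Real.binEntropy t := by
  obtain ⟨pP, pQ⟩ := psd_blocks h
  obtain ⟨V, g, h1, h2, h3⟩ := spec (pP.add pQ).1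
  have t1 := tf_le_diag Real.concaveOn_negMulLog h (bd_unit h1)
    (by simpa [fromBlocks_conjTranspose] using bd_unit (V := Vᴴ) (by simpa using h2))
  simp only [fromBlocks_conjTranspose, fromBlocks_multiply, Fintype.sum_sum_type,
    fromBlocks_apply₁₁, fromBlocks_apply₂₂, conjTranspose_zero, Matrix.zero_mul, Matrix.mul_zero,
    add_zero, zero_add] at t1
  have e1 : Vᴴ * (P + Q) * V = dg g := by
    rw [h3]
    calc _ = (Vᴴ * V) * dg g * (Vᴴ * V) := by simp only [Matrix.mul_assoc]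
      _ = _ := by rw [h1, Matrix.one_mul, Matrix.mul_one]
  have e2 : ∀ j, g j = ((Vᴴ * P * V) j j).re + ((Vᴴ * Q * V) j j).re := by
    intro j
    have := congrArg (fun M : Matrix R R ℂ => (M j j).re) e1
    simp only [Matrix.mul_add, Matrix.add_mul, Matrix.add_apply, Complex.add_re, dg,
      diagonal_apply_eq, Complex.ofReal_re] at this
    exact this.symm
  have e3 : ∀ Z : Matrix R R ℂ, Z.trace.re = ∑ j, ((Vᴴ * Z * V) j j).re := by
    intro Z
    have := trace_conj (U := Vᴴ) (by simpa using h2) Z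
    rw [← this, conjTranspose_conjTranspose, trace, Complex.re_sum]; rfl
  have e4 : ∀ Z : Matrix R R ℂ, Z.PosSemidef → ∀ j, 0 ≤ ((Vᴴ * Z * V) j j).re := fun Z hZ j =>
    (Complex.le_def.mp ((hZ.conjTranspose_mul_mul_same V).diag_nonneg (i := j))).1
  rw [e3] at hP hQ
  have a1 := e4 P pP
  have a2 := e4 Q pQ
  rw [h3, tf_eq _ h1]
  refine t1.trans ?_
  have k1 := Finset.sum_le_sum fun j (_ : j ∈ Finset.univ) => gibbs (α := 1 - t) (r := g j) (a1 j)
    (hP ▸ Finset.single_le_sum (fun k _ => a1 k) (Finset.mem_univ j)) (by linarith [e2 j, a2 j])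
  have k2 := Finset.sum_le_sum fun j (_ : j ∈ Finset.univ) => gibbs (α := t) (r := g j) (a2 j)
    (hQ ▸ Finset.single_le_sum (fun k _ => a2 k) (Finset.mem_univ j)) (by linarith [e2 j, a1 j])
  have k3 : ∑ j, Real.negMulLog (g j) = -(∑ j, ((Vᴴ * P * V) j j).re * Real.log (g j)) -
      ∑ j, ((Vᴴ * Q * V) j j).re * Real.log (g j) := by
    rw [← Finset.sum_neg_distrib, ← Finset.sum_sub_distrib]
    refine Finset.sum_congr rfl fun j _ => ?_
    rw [Real.negMulLog]
    linear_combination (- Real.log (g j)) * e2 j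
  have k4 : ∑ j, g j = 1 := by
    simp only [e2, Finset.sum_add_distrib, hP, hQ]; ring
  simp only [Finset.sum_add_distrib, Finset.sum_sub_distrib, ← Finset.sum_mul, ← Finset.mul_sum,
    hP, hQ, k4] at k1 k2
  rw [k3, Real.binEntropy_eq_negMulLog_add_negMulLog_one_sub]
  simp only [Real.negMulLog] at *
  linarith

end Vale.Agent.P358
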