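import Vale.Agent.P358.Channel

set_option linter.unusedSectionVars false

namespace Vale.Agent.P358
open Matrix Set
open scoped ComplexOrder MatrixOrder

lemma tf_unique {ι : Type*} [Fintype ι] [DecidableEq ι] [Unique ι] (f : ℝ → ℝ) {W : Matrix ι ι ℂ}
    (hW : W.IsHermitian) : tf f W = f W.trace.re := by
  obtain ⟨U, d, h1, -, rfl⟩ := spec hW
  rw [tf_eq f h1, trace_spec h1]
  simp

lemma tr_nonneg {ι : Type*} [Fintype ι] {W : Matrix ι ι ℂ} (hW : W.PosSemidef) :
    0 ≤ W.trace.re := (Complex.le_def.mp hW.trace_nonneg).1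

section
variable {γ ν : ℝ} (hγ : γ ∈ Icc (0 : ℝ) 1) (hν : ν ∈ Icc (0 : ℝ) 1)
include hγ hν

theorem upper {c0 : ℝ} (hc0 : ∀ q ∈ Icc (0 : ℝ) 1,
    Real.binEntropy (tq γ ν q) - Real.binEntropy (mu γ ν q) ≤ c0) (n : ℕ) :
    ∀ (ι : Type) [Fintype ι] (σ : ι → Matrix (Fin n → Fin 2) (Fin n → Fin 2) ℂ),
      (∀ a, (σ a).PosSemidef) → ∑ a, (σ a).trace.re = 1 →
      tf Real.negMulLog (tensorPow (gad γ ν) n (∑ a, σ a)) -
        ∑ a, (tf Real.negMulLog (tensorPow (gad γ ν) n (σ a)) - Real.negMulLog (σ a).trace.re) ≤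
        n * c0 := by
  obtain ⟨p, q, r, h1, h2, h3, h4⟩ := exists_pqr hγ hν
  have b0 : 0 ≤ γ * (1 - ν) := mul_nonneg hγ.1 (by linarith [hν.2])
  have c0' : 0 ≤ γ * ν := mul_nonneg hγ.1 hν.1
  induction n with
  | zero =>
    intro ι _ σ hσ hs
    have hS : (∑ a, σ a).PosSemidef := posSemidef_sum _ fun a _ => hσ a
    rw [tf_unique _ (tp_psd hγ hν h1 h2 h4 0 hS).1, tp_trace h1 h2 h4, trace_sum, Complex.re_sum, hs]
    have : ∀ a, tf Real.negMulLog (tensorPow (gad γ ν) 0 (σ a)) = Real.negMulLog (σ a).trace.re :=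
      fun a => by rw [tf_unique _ (tp_psd hγ hν h1 h2 h4 0 (hσ a)).1, tp_trace h1 h2 h4]
    simp [this]
  | succ n ih =>
    intro ι _ σ hσ hs
    have hS : (∑ a, σ a).PosSemidef := posSemidef_sum _ fun a _ => hσ a
    have bp : ∀ ρ : Matrix (Fin (n + 1) → Fin 2) (Fin (n + 1) → Fin 2) ℂ, ρ.PosSemidef →
        (fromBlocks (blk ρ 0 0) (blk ρ 0 1) (blk ρ 1 0) (blk ρ 1 1)).PosSemidef :=
      fun ρ h => spl_sub ρ ▸ h.submatrix _
    obtain ⟨x, hx⟩ : ∃ x : ι → ℝ, ∀ a, (blk (σ a) 0 0).trace.re = x a := ⟨_, fun _ => rfl⟩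
    obtain ⟨z, hz⟩ : ∃ x : ι → ℝ, ∀ a, (blk (σ a) 1 1).trace.re = x a := ⟨_, fun _ => rfl⟩
    have x0 : ∀ a, 0 ≤ x a := fun a => hx a ▸ tr_nonneg (psd_blocks (bp _ (hσ a))).1
    have z0 : ∀ a, 0 ≤ z a := fun a => hz a ▸ tr_nonneg (psd_blocks (bp _ (hσ a))).2
    have htr : ∀ a, (σ a).trace.re = x a + z a := fun a => by
      rw [trace_blk, Complex.add_re, hx, hz]
    simp only [htr] at hs ⊢
    have hq : ∀ a, z a / (x a + z a) ∈ Icc (0 : ℝ) 1 := fun a =>
      ⟨div_nonneg (z0 a) (add_nonneg (x0 a) (z0 a)),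
        div_le_one_of_le₀ (by linarith [x0 a]) (add_nonneg (x0 a) (z0 a))⟩
    have hpq : ∀ a, (x a + z a) * (z a / (x a + z a)) = z a := by
      intro a
      rcases (add_nonneg (x0 a) (z0 a)).eq_or_lt with h | h
      · rw [← h, zero_mul]; linarith [x0 a, z0 a]
      · field_simp
    have key : ∀ a, (tf Real.negMulLog (tensorPow (gad γ ν) n (blk (σ a) 0 0)) -
        Real.negMulLog (x a)) + (tf Real.negMulLog (tensorPow (gad γ ν) n (blk (σ a) 1 1)) -
        Real.negMulLog (z a)) + (x a + z a) * Real.binEntropy (mu γ ν (z a / (x a + z a))) ≤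
        tf Real.negMulLog (tensorPow (gad γ ν) (n + 1) (σ a)) - Real.negMulLog (x a + z a) := by
      intro a
      obtain ⟨m1, m2⟩ := mu_mem hγ hν (hq a)
      have hP := add_nonneg (x0 a) (z0 a)
      have := star_all p q r b0 c0' h1 h2 h3 (tp_cp hγ hν h1 h2 h4 n (bp _ (hσ a)))
        (x := x a) (z := z a) (by rw [tp_trace h1 h2 h4, hx]) (by rw [tp_trace h1 h2 h4, hz])
        (l1 := (x a + z a) * mu γ ν (z a / (x a + z a)))
        (l2 := (x a + z a) * (1 - mu γ ν (z a / (x a + z a))))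
        (mul_nonneg hP m1.1) (mul_nonneg hP (by linarith [m1.2])) (by ring) (by
          have e1 : p ^ 2 = 1 - γ * ν := by linarith
          have e2 : q ^ 2 + r ^ 2 = 1 - γ * (1 - ν) := by linarith
          have e3 := hpq a
          rw [e1, e2]
          unfold tq at m2
          generalize mu γ ν (z a / (x a + z a)) = μ at *
          generalize z a / (x a + z a) = w at *
          have e4 : x a = (x a + z a) * (1 - w) := by linarith
          generalize x a + z a = P at *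
          rw [e4, ← e3]
          linear_combination P ^ 2 * m2)
      rw [← tp_blocks h1 h2 h4, tf_submatrix _ (tp_psd hγ hν h1 h2 h4 _ (hσ a)).1,
        Real.negMulLog_mul, Real.negMulLog_mul] at this
      rw [Real.binEntropy_eq_negMulLog_add_negMulLog_one_sub]
      linarith
    have k1 := Finset.sum_le_sum fun a (_ : a ∈ Finset.univ) => key a
    have k2 := f_jensen hγ hν (fun a => x a + z a) (fun a => z a / (x a + z a))
      (fun a => add_nonneg (x0 a) (z0 a)) hs hq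
    simp only [hpq] at k2
    have hzs : ∑ a, z a ∈ Icc (0 : ℝ) 1 := by
      refine ⟨Finset.sum_nonneg fun a _ => z0 a, ?_⟩
      rw [← hs]
      exact Finset.sum_le_sum fun a _ => by linarith [x0 a]
    have k3 := hc0 _ hzs
    have k4 := ih (ι ⊕ ι) (Sum.elim (fun a => blk (σ a) 0 0) (fun a => blk (σ a) 1 1))
      (by rintro (a | a)
          · exact (psd_blocks (bp _ (hσ a))).1
          · exact (psd_blocks (bp _ (hσ a))).2)
      (by simpa [hx, hz, Finset.sum_add_distrib] using hs)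
    simp only [Fintype.sum_sum_type, Sum.elim_inl, Sum.elim_inr, hx, hz] at k4
    have hpsd := (tp_psd hγ hν h1 h2 h4 _ hS).submatrix (spl n)
    rw [tp_blocks h1 h2 h4] at hpsd
    rw [Finset.sum_add_distrib] at hs
    have tx : (tensorPow (gad γ ν) n (blk (∑ a, σ a) 0 0)).trace.re = ∑ a, x a := by
      rw [tp_trace h1 h2 h4, blk_sum, trace_sum, Complex.re_sum]; simp only [hx]
    have tz : (tensorPow (gad γ ν) n (blk (∑ a, σ a) 1 1)).trace.re = ∑ a, z a := by
      rw [tp_trace h1 h2 h4, blk_sum, trace_sum, Complex.re_sum]; simp only [hz]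
    have k5 := subadd hpsd (t := tq γ ν (∑ a, z a))
      (by simp only [trace_add, trace_smul, smul_eq_mul, Complex.add_re, Complex.re_ofReal_mul,
            tx, tz, tq]
          linear_combination (∑ a, x a) * h1 + (1 - γ * ν) * hs)
      (by simp only [trace_add, trace_smul, smul_eq_mul, Complex.add_re, Complex.re_ofReal_mul,
            tx, tz, tq]
          linear_combination (∑ a, z a) * h2 + (γ * ν) * hs)
    rw [← tp_blocks h1 h2 h4, tf_submatrix _ (tp_psd hγ hν h1 h2 h4 _ hS).1] at k5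
    have e5 : ∀ A B : Matrix (Fin n → Fin 2) (Fin n → Fin 2) ℂ,
        ((p ^ 2 : ℝ) : ℂ) • A + ((γ * (1 - ν) : ℝ) : ℂ) • B +
        (((γ * ν : ℝ) : ℂ) • A + ((q ^ 2 + r ^ 2 : ℝ) : ℂ) • B) = A + B := by
      intro A B
      have e1 : ((p ^ 2 : ℝ) : ℂ) + ((γ * ν : ℝ) : ℂ) = 1 := by exact_mod_cast h1
      have e2 : ((γ * (1 - ν) : ℝ) : ℂ) + ((q ^ 2 + r ^ 2 : ℝ) : ℂ) = 1 := by exact_mod_cast h2
      rw [add_add_add_comm, ← add_smul, ← add_smul, e1, e2, one_smul, one_smul]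
    rw [e5, ← tp_add, blk_sum, blk_sum] at k5
    simp only [Finset.sum_add_distrib] at k1
    push_cast
    linarith

end

/-- product matrix -/
noncomputable def pm {n : ℕ} (τ : Fin n → Matrix (Fin 2) (Fin 2) ℂ) :
    Matrix (Fin n → Fin 2) (Fin n → Fin 2) ℂ := Matrix.of fun i j => ∏ t, τ t (i t) (j t)

lemma pm_mul {n : ℕ} (A B : Fin n → Matrix (Fin 2) (Fin 2) ℂ) :
    pm A * pm B = pm fun t => A t * B t := by
  ext i j
  simp only [pm, Matrix.mul_apply, of_apply, Finset.prod_univ_sum, Fintype.piFinset_univ,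
    Finset.prod_mul_distrib]

lemma pm_ct {n : ℕ} (A : Fin n → Matrix (Fin 2) (Fin 2) ℂ) : (pm A)ᴴ = pm fun t => (A t)ᴴ := by
  ext i j; simp [pm]

lemma pm_dg {n : ℕ} (d : Fin n → Fin 2 → ℝ) :
    pm (fun t => dg (d t)) = dg fun i => ∏ t, d t (i t) := by
  ext i j
  by_cases h : i = j
  · subst h; simp [pm, dg]
  · obtain ⟨t, ht⟩ := Function.ne_iff.mp h
    rw [pm, of_apply, Finset.prod_eq_zero (Finset.mem_univ t) (by simp [dg, ht])]
    simp [dg, h]

lemma pm_one {n : ℕ} : pm (fun _ : Fin n => 1) = 1 := by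
  have := pm_dg (n := n) fun _ _ => 1
  simpa [dg] using this

lemma sum_ent_prod (n : ℕ) (d : Fin n → Fin 2 → ℝ) (hd : ∀ t, ∑ j, d t j = 1) :
    ∑ i : Fin n → Fin 2, Real.negMulLog (∏ t, d t (i t)) = ∑ t, ∑ j, Real.negMulLog (d t j) := by
  induction n with
  | zero => simp
  | succ n ih =>
    have h1 : ∑ i : Fin n → Fin 2, ∏ t, d t.succ (i t) = 1 := by
      have := Finset.prod_univ_sum (fun _ : Fin n => (Finset.univ : Finset (Fin 2)))
        (fun t j => d t.succ j)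
      rw [Fintype.piFinset_univ] at this
      rw [← this]; simp only [hd, Finset.prod_const_one]
    have h2 := ih (fun t => d t.succ) fun t => hd _
    have h3 := hd 0
    rw [← (spl n).sum_comp, Fintype.sum_sum_type, Fin.sum_univ_succ, ← h2]
    simp only [spl, Equiv.coe_fn_mk, Sum.elim_inl, Sum.elim_inr, Fin.prod_univ_succ, Fin.cons_zero,
      Fin.cons_succ, Real.negMulLog_mul, Finset.sum_add_distrib, ← Finset.sum_mul,
      ← Finset.mul_sum, h1, Fin.sum_univ_two] at h3 ⊢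
    linear_combination (∑ i : Fin n → Fin 2, Real.negMulLog (∏ t, d t.succ (i t))) * h3

lemma pm_props {n : ℕ} (τ : Fin n → Matrix (Fin 2) (Fin 2) ℂ) (h : ∀ t, IsDensity (τ t)) :
    IsDensity (pm τ) ∧ tf Real.negMulLog (pm τ) = ∑ t, tf Real.negMulLog (τ t) := by
  choose U d h1 h2 h3 h4 using fun t => specP (h t).1
  have e : pm τ = pm U * dg (fun i => ∏ t, d t (i t)) * (pm U)ᴴ := by
    rw [← pm_dg, pm_ct, pm_mul, pm_mul]; congr 1; funext t; exact h3 t
  have hU : (pm U)ᴴ * pm U = 1 := by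
    rw [pm_ct, pm_mul, ← pm_one]; congr 1; funext t; exact h1 t
  have hd : ∀ t, ∑ j, d t j = 1 := fun t => by
    rw [← trace_spec (h1 t), ← h3 t, (h t).2, Complex.one_re]
  refine ⟨⟨?_, ?_⟩, ?_⟩
  · rw [e]
    exact (dg_psd fun i => Finset.prod_nonneg fun t _ => h4 t _).mul_mul_conjTranspose_same _
  · have := Finset.prod_univ_sum (fun _ : Fin n => (Finset.univ : Finset (Fin 2)))
        (fun t j => τ t j j)
    rw [Fintype.piFinset_univ] at this
    have h5 : ∀ t, ∑ j, τ t j j = 1 := fun t => (h t).2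
    simp only [h5, Finset.prod_const_one] at this
    exact this.symm
  · rw [e, tf_eq _ hU, sum_ent_prod n d hd]
    refine Finset.sum_congr rfl fun t _ => ?_
    rw [h3 t, tf_eq _ (h1 t)]

lemma ent2 {W : Matrix (Fin 2) (Fin 2) ℂ} (hW : W.IsHermitian) (htr : W.trace.re = 1) {μ : ℝ}
    (hdet : W.det.re = μ * (1 - μ)) : tf Real.negMulLog W = Real.binEntropy μ := by
  obtain ⟨U, d, h1, -, rfl⟩ := spec hW
  rw [trace_spec h1, Fin.sum_univ_two] at htr
  rw [det_spec h1, Complex.ofReal_re, Fin.prod_univ_two] at hdet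
  rw [tf_eq _ h1, Fin.sum_univ_two, Real.binEntropy_eq_negMulLog_add_negMulLog_one_sub]
  have h : (d 0 - μ) * (d 0 - (1 - μ)) = 0 := by linear_combination d 0 * htr - hdet
  rcases mul_eq_zero.mp h with h | h
  · rw [show d 0 = μ by linarith, show d 1 = 1 - μ by linarith]
  · rw [show d 0 = 1 - μ by linarith, show d 1 = μ by linarith, add_comm]

lemma gad_lin (γ ν : ℝ) (τ : Matrix (Fin 2) (Fin 2) ℂ) (i j : Fin 2) :
    ∑ k, ∑ l, gad γ ν (single k l 1) i j * τ k l = gad γ ν τ i j := by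
  fin_cases i <;> fin_cases j <;> simp [gad, Fin.sum_univ_two] <;> ring

lemma tp_pm (γ ν : ℝ) {n : ℕ} (τ : Fin n → Matrix (Fin 2) (Fin 2) ℂ) :
    tensorPow (gad γ ν) n (pm τ) = pm fun t => gad γ ν (τ t) := by
  ext i j
  simp only [tensorPow, pm, of_apply, ← gad_lin γ ν (τ _), Finset.prod_univ_sum,
    Fintype.piFinset_univ, Finset.prod_mul_distrib]

lemma vn_eq {ι : Type} [Fintype ι] [DecidableEq ι] (W : Matrix ι ι ℂ) :
    vnEntropy W = tf Real.negMulLog W / Real.log 2 := by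
  unfold vnEntropy tf
  split_ifs <;> simp

/-- the two signal states -/
noncomputable def psi (q : ℝ) (s : Fin 2) : Matrix (Fin 2) (Fin 2) ℂ :=
  !![((1 - q : ℝ) : ℂ), (((-1) ^ (s : ℕ) * √(q * (1 - q)) : ℝ) : ℂ);
    (((-1) ^ (s : ℕ) * √(q * (1 - q)) : ℝ) : ℂ), (q : ℂ)]

lemma psi_dens {q : ℝ} (hq : q ∈ Icc (0 : ℝ) 1) (s : Fin 2) : IsDensity (psi q s) := by
  have h1 : 0 ≤ 1 - q := by linarith [hq.2]
  refine ⟨?_, by simp [psi, trace_fin_two]⟩
  have := posSemidef_self_mul_conjTranspose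
    !![((√(1 - q) : ℝ) : ℂ), 0; (((-1) ^ (s : ℕ) * √q : ℝ) : ℂ), 0]
  have a1 : ((√(1 - q) : ℝ) : ℂ) * ((√(1 - q) : ℝ) : ℂ) = 1 - q := by
    exact_mod_cast Real.mul_self_sqrt h1
  have a2 : ((√q : ℝ) : ℂ) * ((√q : ℝ) : ℂ) = q := by exact_mod_cast Real.mul_self_sqrt hq.1
  have e : psi q s = !![((√(1 - q) : ℝ) : ℂ), 0; (((-1) ^ (s : ℕ) * √q : ℝ) : ℂ), 0] *
      (!![((√(1 - q) : ℝ) : ℂ), 0; (((-1) ^ (s : ℕ) * √q : ℝ) : ℂ), 0])ᴴ := by
    rw [psi, Real.sqrt_mul hq.1]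
    ext i j
    fin_cases s <;> fin_cases i <;> fin_cases j <;>
      simp [Matrix.mul_apply, Fin.sum_univ_two, a1, a2, mul_comm]
  rw [e]; exact this

section
variable {γ ν : ℝ} (hγ : γ ∈ Icc (0 : ℝ) 1) (hν : ν ∈ Icc (0 : ℝ) 1)
include hγ hν

lemma gad_dens {τ : Matrix (Fin 2) (Fin 2) ℂ} (h : IsDensity τ) : IsDensity (gad γ ν τ) := by
  obtain ⟨p, q, r, h1, h2, h3, h4⟩ := exists_pqr hγ hν
  obtain ⟨Kr, hK⟩ := gad_kraus hγ hν h1 h2 h4
  refine ⟨?_, ?_⟩
  · have e : gad γ ν τ = ∑ κ, Kr κ * τ * (Kr κ)ᴴ := by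
      ext i j
      rw [← gad_lin]
      simp only [hK, Matrix.sum_apply, Matrix.mul_apply, conjTranspose_apply, Fin.sum_univ_two,
        Fin.sum_univ_four]
      ring
    rw [e]
    exact posSemidef_sum _ fun κ _ => h.1.mul_mul_conjTranspose_same _
  · have := h.2
    rw [trace_fin_two] at this ⊢
    simp [gad, this]

lemma attained {q : ℝ} (hq : q ∈ Icc (0 : ℝ) 1) (n : ℕ) :
    n * objective γ ν q ∈ holevoValues (tensorPow (gad γ ν) n) := by
  have hd := fun s => gad_dens hγ hν (psi_dens hq s)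
  have hη : 0 ≤ 1 - γ := by linarith [hγ.2]
  have hqq : 0 ≤ q * (1 - q) := mul_nonneg hq.1 (by linarith [hq.2])
  have e1 : ∀ s, tf Real.negMulLog (gad γ ν (psi q s)) = Real.binEntropy (mu γ ν q) := by
    intro s
    refine ent2 (hd s).1.1 (by rw [(hd s).2, Complex.one_re]) ?_
    rw [(mu_mem hγ hν hq).2, det_fin_two]
    have a1 := Real.mul_self_sqrt hη
    have a2 := Real.mul_self_sqrt hqq
    generalize hw : √(q * (1 - q)) = w at *
    fin_cases s <;> simp [gad, psi, tq, hw] <;>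
      linear_combination (-(w * w)) * a1 - (1 - γ) * a2
  let D : Matrix (Fin 2) (Fin 2) ℂ := !![((1 - tq γ ν q : ℝ) : ℂ), 0; 0, (tq γ ν q : ℂ)]
  have e2 : ∀ i j, ∑ s : Fin 2, (1 / 2 : ℂ) * gad γ ν (psi q s) i j = D i j := by
    intro i j
    fin_cases i <;> fin_cases j <;> simp [gad, psi, tq, D, Fin.sum_univ_two] <;> ring
  have hD : IsDensity D := by
    refine ⟨?_, by simp [D, trace_fin_two]⟩
    have : D = ∑ s : Fin 2, ((1 / 2 : ℝ) : ℂ) • gad γ ν (psi q s) := by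
      ext i j; rw [← e2]; simp [Matrix.sum_apply]
    rw [this]
    exact posSemidef_sum _ fun s _ => psd_rsmul (hd s).1 (by norm_num)
  have e3 : tf Real.negMulLog D = Real.binEntropy (tq γ ν q) :=
    ent2 hD.1.1 (by rw [hD.2, Complex.one_re]) (by simp [D, det_fin_two]; ring)
  let e := (Fintype.equivFin (Fin n → Fin 2)).symm
  refine ⟨_, fun _ => (1 / 2) ^ n, fun a => pm fun t => psi q (e a t), fun _ => by positivity,
    by simp, fun a => (pm_props _ fun t => psi_dens hq _).1, ?_⟩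
  have e4 : ∑ a, (((1 / 2 : ℝ) ^ n : ℝ) : ℂ) • tensorPow (gad γ ν) n (pm fun t => psi q (e a t)) =
      pm fun _ => D := by
    rw [e.sum_comp fun s => (((1 / 2 : ℝ) ^ n : ℝ) : ℂ) •
      tensorPow (gad γ ν) n (pm fun t => psi q (s t))]
    simp only [tp_pm]
    ext i j
    simp only [pm, of_apply, ← e2, Finset.prod_univ_sum, Fintype.piFinset_univ,
      Matrix.sum_apply, Matrix.smul_apply, smul_eq_mul, Finset.prod_mul_distrib]
    simp
  rw [e4]
  simp only [vn_eq, tp_pm, (pm_props _ fun _ => hD).2, (pm_props _ fun _ => hd _).2, e1, e3]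
  simp [objective, tq, mu]
  ring

lemma bounded {q0 : ℝ} (hmax : ∀ q ∈ Icc (0 : ℝ) 1, objective γ ν q ≤ objective γ ν q0) (n : ℕ) :
    n * objective γ ν q0 ∈ upperBounds (holevoValues (tensorPow (gad γ ν) n)) := by
  rintro v ⟨m, p, ρ, hp, hp1, hρ, rfl⟩
  obtain ⟨p', q, r, h1, h2, h3, h4⟩ := exists_pqr hγ hν
  have l2 : 0 < Real.log 2 := Real.log_pos one_lt_two
  have := upper hγ hν (c0 := objective γ ν q0 * Real.log 2) (fun q hq => by
    have := hmax q hq
    rwa [objective, div_le_iff₀ l2] at this) n (Fin m) (fun a => (p a : ℂ) • ρ a)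
    (fun a => psd_rsmul (hρ a).1 (hp a)) (by simp [(hρ _).2, hp1])
  simp only [tp_sum, tp_smul, ent_smul (tp_psd hγ hν h1 h2 h4 n (hρ _).1).1, tp_trace h1 h2 h4,
    trace_smul, (hρ _).2, smul_eq_mul, mul_one, Complex.ofReal_re, Complex.one_re,
    add_sub_cancel_right] at this
  simp only [vn_eq, ← mul_div_assoc, ← Finset.sum_div, ← sub_div]
  rw [div_le_iff₀ l2]
  linarith

end

lemma transfer {ι κ : Type} [Fintype ι] [DecidableEq ι] [Fintype κ] [DecidableEq κ] (e : κ ≃ ι)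
    (N : Matrix ι ι ℂ → Matrix ι ι ℂ) (N' : Matrix κ κ ℂ → Matrix κ κ ℂ)
    (h : ∀ ρ, N' (ρ.submatrix e e) = (N ρ).submatrix e e) : holevoValues N ⊆ holevoValues N' := by
  have hv : ∀ W : Matrix ι ι ℂ, vnEntropy (W.submatrix e e) = vnEntropy W := by
    intro W
    by_cases hW : W.IsHermitian
    · rw [vn_eq, vn_eq, tf_submatrix _ hW]
    · have : ¬ (W.submatrix e e).IsHermitian := by rwa [isHermitian_submatrix_equiv]
      simp [vnEntropy, hW, this]
  rintro v ⟨m, p, ρ, hp, hp1, hρ, rfl⟩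
  refine ⟨m, p, fun a => (ρ a).submatrix e e, hp, hp1, fun a => ⟨(hρ a).1.submatrix e, ?_⟩, ?_⟩
  · rw [← (hρ a).2]; exact e.sum_comp fun i => ρ a i i
  · simp only [h, hv]
    rw [← hv]
    congr 2
    ext i j
    simp [Matrix.sum_apply]

lemma values_one (γ ν : ℝ) : holevoValues (gad γ ν) = holevoValues (tensorPow (gad γ ν) 1) := by
  have h : ∀ ρ : Matrix (Fin 2) (Fin 2) ℂ, tensorPow (gad γ ν) 1
      (ρ.submatrix (Equiv.funUnique (Fin 1) (Fin 2)) (Equiv.funUnique (Fin 1) (Fin 2))) =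
      (gad γ ν ρ).submatrix (Equiv.funUnique (Fin 1) (Fin 2)) (Equiv.funUnique (Fin 1) (Fin 2)) := by
    intro ρ
    have := tp_pm γ ν (n := 1) fun _ => ρ
    have e : ∀ τ : Matrix (Fin 2) (Fin 2) ℂ, (pm fun _ : Fin 1 => τ) =
        τ.submatrix (Equiv.funUnique (Fin 1) (Fin 2)) (Equiv.funUnique (Fin 1) (Fin 2)) := by
      intro τ; ext i j; simp [pm]
    rwa [e, e] at this
  refine Subset.antisymm (transfer _ _ _ h) (transfer (Equiv.funUnique (Fin 1) (Fin 2)).symm _ _ ?_)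
  intro ρ
  have := h (ρ.submatrix (Equiv.funUnique (Fin 1) (Fin 2)).symm
    (Equiv.funUnique (Fin 1) (Fin 2)).symm)
  simp only [submatrix_submatrix, Equiv.symm_comp_self, submatrix_id_id] at this
  rw [this]
  simp only [submatrix_submatrix, Equiv.self_comp_symm, submatrix_id_id]

lemma objective_cont (γ ν : ℝ) : Continuous (objective γ ν) := by
  unfold objective
  have := Real.binEntropy_continuous
  fun_prop

end Vale.Agent.P358
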