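import Vale.Agent.P358.Block

set_option linter.unusedSectionVars false

namespace Vale.Agent.P358
open Matrix
open scoped ComplexOrder MatrixOrder

variable {K R : Type*} [Fintype K] [DecidableEq K] [Fintype R] [DecidableEq R]

lemma psd_rsmul {A : Matrix R R ℂ} (hA : A.PosSemidef) {c : ℝ} (hc : 0 ≤ c) :
    ((c : ℂ) • A).PosSemidef := hA.smul (by exact_mod_cast hc)

lemma pd_shift {A : Matrix R R ℂ} (hA : A.PosSemidef) {s : ℝ} (hs : 0 < s) :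
    ((s : ℂ) • (1 : Matrix R R ℂ) + A).PosDef :=
  (PosDef.one.smul (by exact_mod_cast hs)).add_posSemidef hA

lemma cnt_le (X0 : Matrix R K ℂ) {Z : Matrix R R ℂ} (hZ : Z.PosSemidef) {s m : ℝ} (hs : 0 < s)
    (hm : 0 < m) :
    cnt s (((1 / m : ℝ) : ℂ) • (X0 * X0ᴴ) - Z) ≤
      cnt m (X0ᴴ * ((s : ℂ) • (1 : Matrix R R ℂ) + Z)⁻¹ * X0) := by
  obtain ⟨P, hPe⟩ : ∃ P, P = (s : ℂ) • (1 : Matrix R R ℂ) + Z := ⟨_, rfl⟩
  have hP : P.PosDef := hPe ▸ pd_shift hZ hs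
  rw [← hPe]
  have hX := posSemidef_self_mul_conjTranspose X0
  have hG : (((1 / m : ℝ) : ℂ) • (X0 * X0ᴴ) - Z).IsHermitian :=
    (psd_rsmul hX (by positivity)).1.sub hZ.1
  obtain ⟨V, g, hV1, hV2, hV3⟩ := spec hG
  obtain ⟨U, μ, hU1, hU2, hU3⟩ := spec (hP.inv.posSemidef.conjTranspose_mul_mul_same X0).1
  rw [hV3, hU3, cnt, cnt, tf_eq _ hV1, tf_eq _ hU1]
  refine count_le hU1 μ m hV1 g s X0ᴴ (m ^ 2) (by positivity) ?_
  have e1 : U * dg (fun k => μ k - m) * Uᴴ = X0ᴴ * P⁻¹ * X0 - (m : ℂ) • 1 := by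
    rw [dg_sub μ (fun _ => m), dg_const, Matrix.mul_sub, Matrix.sub_mul, ← hU3]
    simp [hU2]
  have e2 : V * dg (fun j => g j - s) * Vᴴ = ((1 / m : ℝ) : ℂ) • (X0 * X0ᴴ) - P := by
    rw [dg_sub g (fun _ => s), dg_const, Matrix.mul_sub, Matrix.sub_mul, ← hV3, hPe]
    simp [hV2]; abel
  rw [e1, e2]
  have hu := (isUnit_iff_isUnit_det _).mp hP.isUnit
  have i1 : P⁻¹ * P = 1 := nonsing_inv_mul _ hu
  have i2 : P * P⁻¹ = 1 := mul_nonsing_inv _ hu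
  have := hP.inv.posSemidef.conjTranspose_mul_mul_same (X0 * X0ᴴ - (m : ℂ) • P)
  suffices hh : X0ᴴᴴ * (X0ᴴ * P⁻¹ * X0 - (m : ℂ) • 1) * X0ᴴ -
      ((m ^ 2 : ℝ) : ℂ) • (((1 / m : ℝ) : ℂ) • (X0 * X0ᴴ) - P) =
      (X0 * X0ᴴ - (m : ℂ) • P)ᴴ * P⁻¹ * (X0 * X0ᴴ - (m : ℂ) • P) by rw [hh]; exact this
  have hm' : (m : ℂ) ≠ 0 := by exact_mod_cast hm.ne'
  have e3 : (X0 * X0ᴴ - (m : ℂ) • P)ᴴ = X0 * X0ᴴ - (m : ℂ) • P := by
    rw [conjTranspose_sub, hX.1.eq, conjTranspose_smul, hP.1.eq]; simp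
  have e4 : ((m ^ 2 : ℝ) : ℂ) * ((1 / m : ℝ) : ℂ) = m := by push_cast; field_simp
  rw [e3, conjTranspose_conjTranspose, smul_sub, smul_smul, e4]
  simp only [Matrix.sub_mul, Matrix.mul_sub, Matrix.smul_mul, Matrix.mul_smul, i2, Matrix.one_mul,
    Matrix.mul_one, Matrix.mul_assoc, i1, smul_sub, smul_smul]
  push_cast
  rw [sq]

/-- output block matrix -/
noncomputable def outM (p q r b c : ℝ) (X0 Z0 : Matrix R K ℂ) : Matrix (R ⊕ R) (R ⊕ R) ℂ :=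
  fromBlocks (((p ^ 2 : ℝ) : ℂ) • (X0 * X0ᴴ) + (b : ℂ) • (Z0 * Z0ᴴ))
    (((p * q : ℝ) : ℂ) • (X0 * Z0ᴴ)) (((p * q : ℝ) : ℂ) • (Z0 * X0ᴴ))
    ((c : ℂ) • (X0 * X0ᴴ) + ((q ^ 2 + r ^ 2 : ℝ) : ℂ) • (Z0 * Z0ᴴ))

lemma outM_eq (p q r b c : ℝ) (X0 Z0 : Matrix R K ℂ) :
    outM p q r b c X0 Z0 = fromBlocks ((b : ℂ) • (Z0 * Z0ᴴ)) 0 0 ((c : ℂ) • (X0 * X0ᴴ)) +
      (fromBlocks X0 0 0 Z0 * sc K p 0 q r) * (fromBlocks X0 0 0 Z0 * sc K p 0 q r)ᴴ := by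
  rw [conjTranspose_mul, Matrix.mul_assoc, ← Matrix.mul_assoc (sc K p 0 q r), sc_ct, sc_mul]
  simp only [outM, sc, fromBlocks_conjTranspose, fromBlocks_multiply, fromBlocks_add,
    Matrix.smul_mul, Matrix.mul_smul, Matrix.one_mul, conjTranspose_zero, Matrix.mul_zero,
    Matrix.zero_mul, add_zero, zero_add, smul_zero]
  congr 1
  · rw [add_comm]; congr 2; push_cast; ring
  · congr 1; push_cast; ring
  · congr 1; push_cast; ring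
  · congr 2; push_cast; ring

lemma outM_psd (p q r : ℝ) {b c : ℝ} (hb : 0 ≤ b) (hc : 0 ≤ c) (X0 Z0 : Matrix R K ℂ) :
    (outM p q r b c X0 Z0).PosSemidef := by
  rw [outM_eq]
  exact (psd_bd (psd_rsmul (posSemidef_self_mul_conjTranspose Z0) hb)
    (psd_rsmul (posSemidef_self_mul_conjTranspose X0) hc)).add
    (posSemidef_self_mul_conjTranspose _)

lemma det_split (p q r : ℝ) {b c s : ℝ} (hb : 0 ≤ b) (hc : 0 ≤ c) (hs : 0 < s)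
    (X0 Z0 : Matrix R K ℂ) :
    ld ((s : ℂ) • 1 + outM p q r b c X0 Z0) =
      ld ((s : ℂ) • (1 : Matrix R R ℂ) + (b : ℂ) • (Z0 * Z0ᴴ)) +
      ld ((s : ℂ) • (1 : Matrix R R ℂ) + (c : ℂ) • (X0 * X0ᴴ)) +
      ld (Wm p q r (X0ᴴ * ((s : ℂ) • (1 : Matrix R R ℂ) + (b : ℂ) • (Z0 * Z0ᴴ))⁻¹ * X0)
        (Z0ᴴ * ((s : ℂ) • (1 : Matrix R R ℂ) + (c : ℂ) • (X0 * X0ᴴ))⁻¹ * Z0)) := by
  obtain ⟨P, hPe⟩ : ∃ P, P = (s : ℂ) • (1 : Matrix R R ℂ) + (b : ℂ) • (Z0 * Z0ᴴ) := ⟨_, rfl⟩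
  obtain ⟨Q, hQe⟩ : ∃ P, P = (s : ℂ) • (1 : Matrix R R ℂ) + (c : ℂ) • (X0 * X0ᴴ) := ⟨_, rfl⟩
  have hP : P.PosDef := hPe ▸ pd_shift (psd_rsmul (posSemidef_self_mul_conjTranspose Z0) hb) hs
  have hQ : Q.PosDef := hQe ▸ pd_shift (psd_rsmul (posSemidef_self_mul_conjTranspose X0) hc) hs
  rw [← hPe, ← hQe]
  have hW := Wm_pd p q r (hP.inv.posSemidef.conjTranspose_mul_mul_same X0)
    (hQ.inv.posSemidef.conjTranspose_mul_mul_same Z0)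
  obtain ⟨T, hT⟩ : ∃ T, T = fromBlocks X0 0 0 Z0 * sc K p 0 q r := ⟨_, rfl⟩
  have i1 : P * P⁻¹ = 1 := mul_nonsing_inv _ ((isUnit_iff_isUnit_det _).mp hP.isUnit)
  have i2 : Q * Q⁻¹ = 1 := mul_nonsing_inv _ ((isUnit_iff_isUnit_det _).mp hQ.isUnit)
  have e1 : (s : ℂ) • 1 + outM p q r b c X0 Z0 =
      fromBlocks P 0 0 Q * (1 + (fromBlocks P⁻¹ 0 0 Q⁻¹ * T) * Tᴴ) := by
    rw [outM_eq, ← hT, Matrix.mul_add, Matrix.mul_one, ← Matrix.mul_assoc, ← Matrix.mul_assoc,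
      fromBlocks_multiply]
    simp only [i1, i2, Matrix.mul_zero, Matrix.zero_mul, add_zero, zero_add, fromBlocks_one,
      Matrix.one_mul]
    rw [← add_assoc, ← fromBlocks_one, fromBlocks_smul, fromBlocks_add, hPe, hQe]
    simp
  have e2 : 1 + Tᴴ * (fromBlocks P⁻¹ 0 0 Q⁻¹ * T) =
      Wm p q r (X0ᴴ * P⁻¹ * X0) (Z0ᴴ * Q⁻¹ * Z0) := by
    have : fromBlocks (X0ᴴ * P⁻¹ * X0) 0 0 (Z0ᴴ * Q⁻¹ * Z0) =
        (fromBlocks X0 0 0 Z0)ᴴ * fromBlocks P⁻¹ 0 0 Q⁻¹ * fromBlocks X0 0 0 Z0 := by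
      simp [fromBlocks_conjTranspose, fromBlocks_multiply]
    rw [Wm, this, hT, conjTranspose_mul]
    simp only [Matrix.mul_assoc]
  obtain ⟨a1, a2⟩ := det_re_pos hP
  obtain ⟨b1, b2⟩ := det_re_pos hQ
  obtain ⟨c1, c2⟩ := det_re_pos hW
  unfold ld
  rw [e1, det_mul, det_fromBlocks_zero₂₁, det_one_add_mul_comm, e2, a2, b2, c2]
  simp only [← Complex.ofReal_mul, Complex.ofReal_re]
  rw [Real.log_mul (by positivity) c1.ne', Real.log_mul a1.ne' b1.ne']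

lemma trunc_psd {U : Matrix K K ℂ} {d e : K → ℝ} (h : ∀ k, d k ≤ e k) :
    (U * dg e * Uᴴ - U * dg d * Uᴴ).PosSemidef := by
  rw [← Matrix.sub_mul, ← Matrix.mul_sub, ← dg_sub]
  exact (dg_psd fun k => sub_nonneg.mpr (h k)).mul_mul_conjTranspose_same U

lemma trunc_le {U : Matrix K K ℂ} (hU : U * Uᴴ = 1) {d : K → ℝ} {m : ℝ} (h : ∀ k, d k ≤ m) :
    ((m : ℂ) • 1 - U * dg d * Uᴴ).PosSemidef := by
  have := trunc_psd (U := U) (e := fun _ => m) h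
  rw [dg_const] at this
  simpa [hU] using this

lemma trunc_tr {U : Matrix K K ℂ} (hU : Uᴴ * U = 1) (μ : K → ℝ) {m m' : ℝ} (h : m ≤ m') :
    (m' - m) * cnt m' (U * dg μ * Uᴴ) ≤
      (U * dg (fun k => min (μ k) m') * Uᴴ - U * dg (fun k => min (μ k) m) * Uᴴ).trace.re := by
  rw [trace_sub, Complex.sub_re, trace_spec hU, trace_spec hU, cnt, tf_eq _ hU,
    ← Finset.sum_sub_distrib, Finset.mul_sum]
  refine Finset.sum_le_sum fun k _ => ?_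
  split_ifs with hk
  · rw [min_eq_right hk.le, min_eq_right (h.trans hk.le)]; simp
  · have := min_le_min_left (μ k) h
    simpa using this

/-- first coefficient -/
noncomputable def coA (a d e m n : ℝ) : ℝ := (a + e * n) / (1 + a * m + d * n + e * (m * n))

lemma telescope (p q r : ℝ) {M N : Matrix K K ℂ} (hM : M.PosSemidef) (hN : N.PosSemidef)
    (m n : ℕ → ℝ) (hm0 : m 0 = 0) (hn0 : n 0 = 0) (hm : Monotone m) (hn : Monotone n) (L : ℕ) :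
    ∑ i ∈ Finset.range L,
      ((m (i + 1) - m i) * coA (p ^ 2) (q ^ 2 + r ^ 2) (p ^ 2 * r ^ 2) (m (i + 1)) (n (i + 1)) *
        cnt (m (i + 1)) M +
      (n (i + 1) - n i) * coA (q ^ 2 + r ^ 2) (p ^ 2) (p ^ 2 * r ^ 2) (n (i + 1)) (m (i + 1)) *
        cnt (n (i + 1)) N) ≤ ld (Wm p q r M N) := by
  obtain ⟨U, μ, hU1, hU2, rfl, hμ⟩ := specP hM
  obtain ⟨V, ν, hV1, hV2, rfl, hν⟩ := specP hN
  have m0 : ∀ i, 0 ≤ m i := fun i => hm0 ▸ hm (Nat.zero_le i)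
  have n0 : ∀ i, 0 ≤ n i := fun i => hn0 ▸ hn (Nat.zero_le i)
  have pm : ∀ i, (U * dg (fun k => min (μ k) (m i)) * Uᴴ).PosSemidef := fun i =>
    (dg_psd fun k => le_min (hμ k) (m0 i)).mul_mul_conjTranspose_same U
  have pn : ∀ i, (V * dg (fun k => min (ν k) (n i)) * Vᴴ).PosSemidef := fun i =>
    (dg_psd fun k => le_min (hν k) (n0 i)).mul_mul_conjTranspose_same V
  refine le_trans ?_ (ld_mono (Wm_pd p q r (pm L) (pn L)) (Wm_pd p q r hM hN)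
    (Wm_le p q r (trunc_psd fun k => min_le_left _ _) (trunc_psd fun k => min_le_left _ _)))
  induction L with
  | zero =>
    have z1 : dg (fun k => min (μ k) (m 0)) = 0 := by
      ext i j; simp [dg, hm0, min_eq_right (hμ _)]
    have z2 : dg (fun k => min (ν k) (n 0)) = 0 := by
      ext i j; simp [dg, hn0, min_eq_right (hν _)]
    simp [z1, z2, ld_Wm_zero]
  | succ L ih =>
    rw [Finset.sum_range_succ]
    have h1 := hm (Nat.le_succ L)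
    have h2 := hn (Nat.le_succ L)
    have := Wm_step p q r (m (L + 1)) (n (L + 1)) (m0 _) (n0 _) (pm L) (pn L)
      (trunc_psd (U := U) fun k => min_le_min_left (μ k) h1)
      (trunc_psd (U := V) fun k => min_le_min_left (ν k) h2)
      (trunc_le hU2 fun k => min_le_right _ _) (trunc_le hV2 fun k => min_le_right _ _)
    have t1 := trunc_tr hU1 μ h1
    have t2 := trunc_tr hV1 ν h2
    have m1 := m0 (L + 1)
    have n1 := n0 (L + 1)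
    have c1 : 0 ≤ coA (p ^ 2) (q ^ 2 + r ^ 2) (p ^ 2 * r ^ 2) (m (L + 1)) (n (L + 1)) := by
      unfold coA; positivity
    have c2 : 0 ≤ coA (q ^ 2 + r ^ 2) (p ^ 2) (p ^ 2 * r ^ 2) (n (L + 1)) (m (L + 1)) := by
      unfold coA; positivity
    have t1' := mul_le_mul_of_nonneg_left t1 c1
    have t2' := mul_le_mul_of_nonneg_left t2 c2
    have e2 : coA (q ^ 2 + r ^ 2) (p ^ 2) (p ^ 2 * r ^ 2) (n (L + 1)) (m (L + 1)) =
        (q ^ 2 + r ^ 2 + p ^ 2 * r ^ 2 * m (L + 1)) / (1 + p ^ 2 * m (L + 1) +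
          (q ^ 2 + r ^ 2) * n (L + 1) + p ^ 2 * r ^ 2 * (m (L + 1) * n (L + 1))) := by
      unfold coA; congr 1; ring
    rw [← e2] at this
    change _ + coA (p ^ 2) (q ^ 2 + r ^ 2) (p ^ 2 * r ^ 2) (m (L + 1)) (n (L + 1)) * _ + _ ≤ _
      at this
    simp only [Nat.succ_eq_add_one] at *
    linarith

lemma fixed_s (p q r : ℝ) {b c s : ℝ} (hb : 0 ≤ b) (hc : 0 ≤ c) (hs : 0 < s)
    (X0 Z0 : Matrix R K ℂ) (m n : ℕ → ℝ) (hm0 : m 0 = 0) (hn0 : n 0 = 0) (hm : Monotone m)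
    (hn : Monotone n) (hm1 : ∀ i, 0 < m (i + 1)) (hn1 : ∀ i, 0 < n (i + 1)) (L : ℕ) :
    ∑ i ∈ Finset.range L,
      ((m (i + 1) - m i) * coA (p ^ 2) (q ^ 2 + r ^ 2) (p ^ 2 * r ^ 2) (m (i + 1)) (n (i + 1)) *
        cnt s (((1 / m (i + 1) : ℝ) : ℂ) • (X0 * X0ᴴ) - (b : ℂ) • (Z0 * Z0ᴴ)) +
      (n (i + 1) - n i) * coA (q ^ 2 + r ^ 2) (p ^ 2) (p ^ 2 * r ^ 2) (n (i + 1)) (m (i + 1)) *
        cnt s (((1 / n (i + 1) : ℝ) : ℂ) • (Z0 * Z0ᴴ) - (c : ℂ) • (X0 * X0ᴴ))) ≤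
      ld ((s : ℂ) • 1 + outM p q r b c X0 Z0) -
      ld ((s : ℂ) • (1 : Matrix R R ℂ) + (b : ℂ) • (Z0 * Z0ᴴ)) -
      ld ((s : ℂ) • (1 : Matrix R R ℂ) + (c : ℂ) • (X0 * X0ᴴ)) := by
  have hZ := psd_rsmul (posSemidef_self_mul_conjTranspose Z0) hb
  have hX := psd_rsmul (posSemidef_self_mul_conjTranspose X0) hc
  have := telescope p q r ((pd_shift hZ hs).inv.posSemidef.conjTranspose_mul_mul_same X0)
    ((pd_shift hX hs).inv.posSemidef.conjTranspose_mul_mul_same Z0) m n hm0 hn0 hm hn L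
  rw [det_split p q r hb hc hs]
  refine le_trans (Finset.sum_le_sum fun i _ => ?_) (this.trans (by linarith))
  have h1 := hm (Nat.le_succ i)
  have h2 := hn (Nat.le_succ i)
  have m1 := hm1 i
  have n1 := hn1 i
  refine add_le_add (mul_le_mul_of_nonneg_left (cnt_le X0 hZ hs m1) ?_)
    (mul_le_mul_of_nonneg_left (cnt_le Z0 hX hs n1) ?_)
  · exact mul_nonneg (sub_nonneg.mpr h1) (by unfold coA; positivity)
  · exact mul_nonneg (sub_nonneg.mpr h2) (by unfold coA; positivity)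

end Vale.Agent.P358
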