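import Vale.Agent.P358.Fixed

set_option linter.unusedSectionVars false

namespace Vale.Agent.P358
open Matrix MeasureTheory
open scoped ComplexOrder MatrixOrder

/-- antiderivative -/
noncomputable def Lf (S y : ℝ) : ℝ := (S + y) * Real.log (S + y) - S * Real.log S - y * Real.log y

lemma Lf_zero (y : ℝ) : Lf 0 y = 0 := by simp [Lf]

lemma ii_log (y S1 S : ℝ) :
    IntervalIntegrable (fun s => Real.log (s + y) - Real.log s) volume S1 S := by
  refine IntervalIntegrable.sub ?_ intervalIntegral.intervalIntegrable_log'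
  have := (intervalIntegral.intervalIntegrable_log' (a := S1 + y) (b := S + y)).comp_add_right y
  simpa using this

lemma int_log (y S1 S : ℝ) :
    ∫ s in S1..S, (Real.log (s + y) - Real.log s) = Lf S y - Lf S1 y := by
  rw [intervalIntegral.integral_sub _ intervalIntegral.intervalIntegrable_log',
    intervalIntegral.integral_comp_add_right (fun s => Real.log s), integral_log, integral_log]
  · unfold Lf; ring
  · have := (intervalIntegral.intervalIntegrable_log' (a := S1 + y) (b := S + y)).comp_add_right y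
    simpa using this

lemma ii_ind (g S1 S : ℝ) :
    IntervalIntegrable (fun s => if s < g then (1 : ℝ) else 0) volume S1 S := by
  apply Antitone.intervalIntegrable
  intro a b hab
  dsimp only
  split_ifs with h1 h2 <;> first | simp | linarith

lemma int_ind0 {g S1 S : ℝ} (h : S1 ≤ S) (hg : g ≤ S1) :
    ∫ s in S1..S, (if s < g then (1 : ℝ) else 0) = 0 := by
  rw [intervalIntegral.integral_congr (g := fun _ => 0)]
  · simp
  · intro s hs
    rw [Set.uIcc_of_le h] at hs
    simp only [ite_eq_right_iff]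
    intro; linarith [hs.1]

lemma int_ind1 {g S1 S : ℝ} (h : S1 ≤ S) (hg : S ≤ g) :
    ∫ s in S1..S, (if s < g then (1 : ℝ) else 0) = S - S1 := by
  rw [intervalIntegral.integral_of_le h, integral_Ioc_eq_integral_Ioo,
    setIntegral_congr_fun (g := fun _ => 1) measurableSet_Ioo]
  · simp [h]
  · intro s hs
    simp only [ite_eq_left_iff]
    intro hh; exact absurd (hs.2.trans_le hg) hh

lemma int_ind (g : ℝ) {S1 S : ℝ} (h : S1 ≤ S) :
    ∫ s in S1..S, (if s < g then (1 : ℝ) else 0) = min g S - min g S1 := by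
  rcases le_total g S1 with h1 | h1
  · rw [int_ind0 h h1, min_eq_left h1, min_eq_left (h1.trans h), sub_self]
  rcases le_total S g with h2 | h2
  · rw [int_ind1 h h2, min_eq_right h2, min_eq_right h1]
  · rw [← intervalIntegral.integral_add_adjacent_intervals (ii_ind g S1 g) (ii_ind g g S),
      int_ind1 h1 le_rfl, int_ind0 h2 le_rfl, min_eq_left h2, min_eq_right h1, add_zero]

lemma ii_sum {ι : Type*} (t : Finset ι) {f : ι → ℝ → ℝ} {a b : ℝ}
    (h : ∀ i ∈ t, IntervalIntegrable (f i) volume a b) :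
    IntervalIntegrable (fun s => ∑ i ∈ t, f i s) volume a b := by
  simpa [Finset.sum_fn] using IntervalIntegrable.sum t h

lemma sum_ind_ge (C t : ℕ → ℝ) (L : ℕ) {S1 S : ℝ} (h : S1 ≤ S) {ψ : ℝ → ℝ}
    (hψ : IntervalIntegrable ψ volume S1 S)
    (hle : ∀ s ∈ Set.Ioo S1 S, ψ s ≤ ∑ i ∈ Finset.range L, C i * if s < t i then 1 else 0) :
    ∫ s in S1..S, ψ s ≤ ∑ i ∈ Finset.range L, C i * (min (t i) S - min (t i) S1) := by
  have hi : ∀ i ∈ Finset.range L,
      IntervalIntegrable (fun s => C i * if s < t i then (1 : ℝ) else 0) volume S1 S :=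
    fun i _ => (ii_ind (t i) S1 S).const_mul _
  have := intervalIntegral.integral_mono_on_of_le_Ioo h hψ
    (by simpa [Finset.sum_fn] using IntervalIntegrable.sum (Finset.range L) hi) hle
  rw [intervalIntegral.integral_finsetSum hi] at this
  simpa only [intervalIntegral.integral_const_mul, int_ind _ h] using this

lemma discrete (θ : ℕ → ℝ) (P : ℕ → Prop) [DecidablePred P] (η c : ℝ)
    (hstep : ∀ i, θ (i + 1) - θ i ≤ η) (hP : ∀ i, P (i + 1) → P i)
    (hc : ∀ i, ¬ P i → c ≤ θ (i + 1)) (L : ℕ) :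
    min (θ L) (c - η) - θ 0 ≤
      ∑ i ∈ Finset.range L, (θ (i + 1) - θ i) * if P i then 1 else 0 := by
  induction L with
  | zero => simp
  | succ L ih =>
    by_cases h : P L
    · have hall : ∀ k i, i + k = L → P i := by
        intro k
        induction k with
        | zero => intro i hi; simpa [← hi] using h
        | succ k ihk => intro i hi; exact hP i (ihk (i + 1) (by omega))
      have : ∑ i ∈ Finset.range (L + 1), (θ (i + 1) - θ i) * (if P i then (1 : ℝ) else 0) =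
          ∑ i ∈ Finset.range (L + 1), (θ (i + 1) - θ i) := by
        refine Finset.sum_congr rfl fun i hi => ?_
        rw [if_pos (hall (L - i) i (by have := Finset.mem_range.mp hi; omega)), mul_one]
      rw [this, Finset.sum_range_sub]
      linarith [min_le_left (θ (L + 1)) (c - η)]
    · rw [Finset.sum_range_succ, if_neg h, mul_zero, add_zero]
      have h1 := hc L h
      have h2 := hstep L
      rw [min_eq_right (by linarith : c - η ≤ θ L)] at ih
      linarith [min_le_right (θ (L + 1)) (c - η)]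

variable {K R : Type*} [Fintype K] [DecidableEq K] [Fintype R] [DecidableEq R]

lemma ii_cnt {G : Matrix R R ℂ} (hG : G.IsHermitian) (S1 S : ℝ) :
    IntervalIntegrable (fun s => cnt s G) volume S1 S := by
  obtain ⟨V, g, h1, -, rfl⟩ := spec hG
  simp only [cnt, tf_eq _ h1]
  simpa [Finset.sum_fn] using IntervalIntegrable.sum Finset.univ fun j _ => ii_ind (g j) S1 S

lemma int_cnt {X Z : Matrix R R ℂ} (hX : X.PosSemidef) (hZ : Z.PosSemidef) {l S : ℝ} (hl : 0 ≤ l)
    (hS : 0 ≤ S) :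
    tf (fun y => min (l * y) S) X - Z.trace.re ≤ ∫ s in (0 : ℝ)..S, cnt s ((l : ℂ) • X - Z) := by
  obtain ⟨V, g, h1, h2, h3⟩ := spec ((psd_rsmul hX hl).1.sub hZ.1)
  have hf : ConcaveOn ℝ (Set.Ici 0) (fun y : ℝ => min (l * y) S) := by
    have a1 : ConcaveOn ℝ (Set.Ici 0) (fun y : ℝ => l * y) :=
      (concaveOn_id (convex_Ici 0)).smul hl
    exact a1.inf (concaveOn_const S (convex_Ici 0))
  have t1 := tf_le_diag hf hX h1 h2
  have e1 : Vᴴ * ((l : ℂ) • X - Z) * V = dg g := by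
    rw [h3]
    calc _ = (Vᴴ * V) * dg g * (Vᴴ * V) := by simp only [Matrix.mul_assoc]
      _ = _ := by rw [h1, Matrix.one_mul, Matrix.mul_one]
  have e2 : ∀ j, g j = l * ((Vᴴ * X * V) j j).re - ((Vᴴ * Z * V) j j).re := by
    intro j
    have := congrArg (fun M : Matrix R R ℂ => (M j j).re) e1
    simp only [Matrix.mul_sub, Matrix.sub_mul, Matrix.mul_smul, Matrix.smul_mul, Matrix.sub_apply,
      Matrix.smul_apply, smul_eq_mul, Complex.sub_re, Complex.re_ofReal_mul, dg, diagonal_apply_eq,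
      Complex.ofReal_re] at this
    exact this.symm
  have e3 : Z.trace.re = ∑ j, ((Vᴴ * Z * V) j j).re := by
    have := trace_conj (U := Vᴴ) (by simpa using h2) Z
    rw [← this, conjTranspose_conjTranspose, trace, Complex.re_sum]; rfl
  have e4 : ∀ j, 0 ≤ ((Vᴴ * Z * V) j j).re := fun j =>
    (Complex.le_def.mp ((hZ.conjTranspose_mul_mul_same V).diag_nonneg (i := j))).1
  rw [h3]
  simp only [cnt, tf_eq _ h1]
  rw [intervalIntegral.integral_finsetSum fun j _ => ii_ind (g j) 0 S, e3]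
  refine le_trans (sub_le_sub_right t1 _) ?_
  rw [← Finset.sum_sub_distrib]
  refine Finset.sum_le_sum fun j _ => ?_
  rw [int_ind _ hS]
  have := min_le_right (g j) 0
  have h5 : min (l * ((Vᴴ * X * V) j j).re) S - ((Vᴴ * Z * V) j j).re ≤ min (g j) S := by
    refine le_min ?_ ?_
    · rw [e2 j]; linarith [min_le_left (l * ((Vᴴ * X * V) j j).re) S]
    · linarith [min_le_right (l * ((Vᴴ * X * V) j j).re) S, e4 j]
  linarith

lemma ld_shift {W : Matrix R R ℂ} (hW : W.PosSemidef) {s : ℝ} (hs : 0 < s) :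
    ld ((s : ℂ) • 1 + W) =
      tf (fun y => Real.log (s + y) - Real.log s) W + Fintype.card R * Real.log s := by
  obtain ⟨U, d, h1, h2, rfl, hd⟩ := specP hW
  have : (s : ℂ) • 1 + U * dg d * Uᴴ = U * dg (fun i => s + d i) * Uᴴ := by
    rw [dg_add (fun _ => s) d, dg_const, Matrix.mul_add, Matrix.add_mul]; simp [h2]
  rw [this, ld_spec h1 fun i => by linarith [hd i], tf_eq _ h1]
  simp

lemma ii_lg {W : Matrix R R ℂ} (hW : W.IsHermitian) (S1 S : ℝ) :
    IntervalIntegrable (fun s => tf (fun y => Real.log (s + y) - Real.log s) W) volume S1 S := by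
  obtain ⟨V, g, h1, -, rfl⟩ := spec hW
  simp only [tf_eq _ h1]
  simpa [Finset.sum_fn] using IntervalIntegrable.sum Finset.univ fun j _ => ii_log (g j) S1 S

lemma int_lg {W : Matrix R R ℂ} (hW : W.IsHermitian) (S : ℝ) :
    ∫ s in (0 : ℝ)..S, tf (fun y => Real.log (s + y) - Real.log s) W = tf (Lf S) W := by
  obtain ⟨V, g, h1, -, rfl⟩ := spec hW
  simp only [tf_eq _ h1]
  rw [intervalIntegral.integral_finsetSum fun j _ => ii_log (g j) 0 S]
  simp [int_log, Lf_zero]

lemma integrated (p q r : ℝ) {b c S : ℝ} (hb : 0 ≤ b) (hc : 0 ≤ c) (hS : 0 ≤ S)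
    (X0 Z0 : Matrix R K ℂ) (m n : ℕ → ℝ) (hm0 : m 0 = 0) (hn0 : n 0 = 0) (hm : Monotone m)
    (hn : Monotone n) (hm1 : ∀ i, 0 < m (i + 1)) (hn1 : ∀ i, 0 < n (i + 1)) (L : ℕ) :
    ∑ i ∈ Finset.range L,
      ((m (i + 1) - m i) * coA (p ^ 2) (q ^ 2 + r ^ 2) (p ^ 2 * r ^ 2) (m (i + 1)) (n (i + 1)) *
        (tf (fun y => min (1 / m (i + 1) * y) S) (X0 * X0ᴴ) - b * (Z0 * Z0ᴴ).trace.re) +
      (n (i + 1) - n i) * coA (q ^ 2 + r ^ 2) (p ^ 2) (p ^ 2 * r ^ 2) (n (i + 1)) (m (i + 1)) *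
        (tf (fun y => min (1 / n (i + 1) * y) S) (Z0 * Z0ᴴ) - c * (X0 * X0ᴴ).trace.re)) ≤
      tf (Lf S) (outM p q r b c X0 Z0) - tf (Lf S) ((b : ℂ) • (Z0 * Z0ᴴ)) -
        tf (Lf S) ((c : ℂ) • (X0 * X0ᴴ)) := by
  have hX := posSemidef_self_mul_conjTranspose X0
  have hZ := posSemidef_self_mul_conjTranspose Z0
  have hZ' := psd_rsmul hZ hb
  have hX' := psd_rsmul hX hc
  have hO := outM_psd p q r hb hc X0 Z0
  have g1 : ∀ i, (((1 / m (i + 1) : ℝ) : ℂ) • (X0 * X0ᴴ) - (b : ℂ) • (Z0 * Z0ᴴ)).IsHermitian :=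
    fun i => (psd_rsmul hX (one_div_pos.mpr (hm1 i)).le).1.sub hZ'.1
  have g2 : ∀ i, (((1 / n (i + 1) : ℝ) : ℂ) • (Z0 * Z0ᴴ) - (c : ℂ) • (X0 * X0ᴴ)).IsHermitian :=
    fun i => (psd_rsmul hZ (one_div_pos.mpr (hn1 i)).le).1.sub hX'.1
  have hi : ∀ i ∈ Finset.range L, IntervalIntegrable (fun s =>
      ((m (i + 1) - m i) * coA (p ^ 2) (q ^ 2 + r ^ 2) (p ^ 2 * r ^ 2) (m (i + 1)) (n (i + 1)) *
        cnt s (((1 / m (i + 1) : ℝ) : ℂ) • (X0 * X0ᴴ) - (b : ℂ) • (Z0 * Z0ᴴ)) +
      (n (i + 1) - n i) * coA (q ^ 2 + r ^ 2) (p ^ 2) (p ^ 2 * r ^ 2) (n (i + 1)) (m (i + 1)) *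
        cnt s (((1 / n (i + 1) : ℝ) : ℂ) • (Z0 * Z0ᴴ) - (c : ℂ) • (X0 * X0ᴴ)))) volume 0 S :=
    fun i _ => ((ii_cnt (g1 i) 0 S).const_mul _).add ((ii_cnt (g2 i) 0 S).const_mul _)
  have key := intervalIntegral.integral_mono_on_of_le_Ioo hS (ii_sum (Finset.range L) hi)
    (((ii_lg hO.1 0 S).sub (ii_lg hZ'.1 0 S)).sub (ii_lg hX'.1 0 S)) (fun s hs => by
      have := fixed_s p q r hb hc hs.1 X0 Z0 m n hm0 hn0 hm hn hm1 hn1 L
      rw [ld_shift hO hs.1, ld_shift hZ' hs.1, ld_shift hX' hs.1, Fintype.card_sum,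
        Nat.cast_add] at this
      linarith)
  rw [intervalIntegral.integral_sub ((ii_lg hO.1 0 S).sub (ii_lg hZ'.1 0 S)) (ii_lg hX'.1 0 S),
    intervalIntegral.integral_sub (ii_lg hO.1 0 S) (ii_lg hZ'.1 0 S), int_lg hO.1, int_lg hZ'.1,
    int_lg hX'.1, intervalIntegral.integral_finsetSum hi] at key
  refine le_trans (Finset.sum_le_sum fun i _ => ?_) key
  rw [intervalIntegral.integral_add ((ii_cnt (g1 i) 0 S).const_mul _)
    ((ii_cnt (g2 i) 0 S).const_mul _), intervalIntegral.integral_const_mul,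
    intervalIntegral.integral_const_mul]
  have h1 := hm (Nat.le_succ i)
  have h2 := hn (Nat.le_succ i)
  have m1 := hm1 i
  have n1 := hn1 i
  have k1 := int_cnt hX hZ' (one_div_pos.mpr m1).le hS
  have k2 := int_cnt hZ hX' (one_div_pos.mpr n1).le hS
  rw [trace_smul, smul_eq_mul, Complex.re_ofReal_mul] at k1 k2
  refine add_le_add (mul_le_mul_of_nonneg_left k1 ?_) (mul_le_mul_of_nonneg_left k2 ?_)
  · exact mul_nonneg (sub_nonneg.mpr h1) (by unfold coA; positivity)
  · exact mul_nonneg (sub_nonneg.mpr h2) (by unfold coA; positivity)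

end Vale.Agent.P358
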