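import Vale.Agent.P358.Integ

set_option linter.unusedSectionVars false

namespace Vale.Agent.P358
open MeasureTheory

lemma S2 (m A : ℕ → ℝ) (L : ℕ) {x y S κ η : ℝ} (hx : 0 < x) (hy : 0 ≤ y) (hyx : y ≤ x)
    (hS : 0 < S) (hκ : 0 ≤ κ) (hη : 0 ≤ η) (hm0 : m 0 = 0) (hm : Monotone m)
    (hm1 : ∀ i, 0 < m (i + 1)) (hstep : ∀ i, m (i + 1) - m i ≤ η)
    (hA1 : ∀ i, m (i + 1) ≤ x / S → κ * (m (i + 1) - m i) ≤ A i) (hL : x / S ≤ m L) :
    κ * (Real.negMulLog y + y * Real.log x - η * S) ≤
      ∑ i ∈ Finset.range L,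
        A i * (min (1 / m (i + 1) * y) S - y / x * min (1 / m (i + 1) * x) S) := by
  rcases hy.eq_or_lt with rfl | hy
  · simp only [Real.negMulLog_zero, zero_mul, mul_zero, zero_div, sub_zero, min_eq_left hS.le,
      Finset.sum_const_zero, add_zero, zero_sub]
    nlinarith [mul_nonneg hη hS.le]
  have e : ∀ i, y / x * min (1 / m (i + 1) * x) S = min (1 / m (i + 1) * y) (S * y / x) := by
    intro i
    rw [mul_min_of_nonneg _ _ (by positivity)]
    congr 1
    · field_simp
    · ring
  simp only [e]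
  have h1 : 0 < S * y / x := by positivity
  have h2 : S * y / x ≤ S := by rw [div_le_iff₀ hx]; nlinarith
  have hint : IntervalIntegrable (fun s : ℝ => s⁻¹) volume (S * y / x) S := by
    apply intervalIntegral.intervalIntegrable_inv
    · intro s hs
      rw [Set.uIcc_of_le h2] at hs
      linarith [hs.1]
    · exact continuousOn_id
  have := sum_ind_ge A (fun i => 1 / m (i + 1) * y) L h2 (ψ := fun s => κ * (y * s⁻¹ - η))
    (((hint.const_mul y).sub intervalIntegrable_const).const_mul κ) (fun s hs => by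
      have hs0 : 0 < s := h1.trans hs.1
      have hys : y / s ≤ x / S := by
        rw [div_le_div_iff₀ hs0 hS]
        have := hs.1
        rw [div_lt_iff₀ hx] at this
        nlinarith
      have hP : ∀ i, s < 1 / m (i + 1) * y ↔ m (i + 1) < y / s := by
        intro i
        rw [lt_div_iff₀ hs0, one_div, inv_mul_eq_div, lt_div_iff₀ (hm1 i), mul_comm]
      have hd := discrete m (fun i => s < 1 / m (i + 1) * y) η (y / s) hstep
        (fun i h => (hP i).mpr ((hm (Nat.le_succ _)).trans_lt ((hP _).mp h)))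
        (fun i h => not_lt.mp fun h' => h ((hP i).mpr h')) L
      rw [hm0, sub_zero, min_eq_right (by linarith)] at hd
      calc κ * (y * s⁻¹ - η) ≤ κ * ∑ i ∈ Finset.range L,
            (m (i + 1) - m i) * if s < 1 / m (i + 1) * y then 1 else 0 :=
            mul_le_mul_of_nonneg_left (by rw [← div_eq_mul_inv]; exact hd) hκ
        _ ≤ _ := by
            rw [Finset.mul_sum]
            refine Finset.sum_le_sum fun i _ => ?_
            split_ifs with h
            · simpa using hA1 i (((hP i).mp h).le.trans hys)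
            · simp)
  refine le_trans ?_ this
  rw [intervalIntegral.integral_const_mul,
    intervalIntegral.integral_sub (hint.const_mul y) intervalIntegrable_const,
    intervalIntegral.integral_const_mul, integral_inv_of_pos h1 hS, intervalIntegral.integral_const]
  refine mul_le_mul_of_nonneg_left ?_ hκ
  have : S / (S * y / x) = x / y := by field_simp
  rw [this, Real.log_div hx.ne' hy.ne', Real.negMulLog, smul_eq_mul]
  nlinarith [mul_nonneg hη h1.le]

lemma S1 (u C : ℕ → ℝ) (g : ℝ → ℝ) (L : ℕ) {S κ η ε : ℝ} (hε : 0 < ε) (hS : ε ≤ S) (hκ : 0 ≤ κ)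
    (hη : 0 ≤ η) (hu0 : u 0 = 0) (hu : Monotone u) (hu1 : ∀ i, 0 < u (i + 1)) (hg0 : g 0 = 0)
    (hg : MonotoneOn g (Set.Ici 0)) (hstep : ∀ i, g (u (i + 1)) - g (u i) ≤ η)
    (hC : ∀ i, κ * (g (u (i + 1)) - g (u i)) ≤ C i) (hL : 1 / ε ≤ u L) {ψ : ℝ → ℝ}
    (hψ : IntervalIntegrable ψ volume ε S) (hψ1 : ∀ s, 0 < s → ψ s = g (1 / s)) :
    κ * ((∫ s in ε..S, ψ s) - η * S) ≤ ∑ i ∈ Finset.range L, C i * min (1 / u (i + 1)) S := by
  have u0 : ∀ i, 0 ≤ u i := fun i => hu0 ▸ hu (Nat.zero_le i)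
  have hC0 : ∀ i, 0 ≤ C i := fun i =>
    le_trans (mul_nonneg hκ (sub_nonneg.mpr (hg (u0 i) (u0 _) (hu (Nat.le_succ i))))) (hC i)
  have := sum_ind_ge C (fun i => 1 / u (i + 1)) L hS (ψ := fun s => κ * (ψ s - η))
    ((hψ.sub intervalIntegrable_const).const_mul κ) (fun s hs => by
      have hs0 : 0 < s := hε.trans hs.1
      have hP : ∀ i, s < 1 / u (i + 1) ↔ u (i + 1) < 1 / s := fun i => lt_one_div hs0 (hu1 i)
      have hs1 : (1 / s) ∈ Set.Ici (0 : ℝ) := (one_div_pos.mpr hs0).le
      have hd := discrete (fun i => g (u i)) (fun i => s < 1 / u (i + 1)) η (g (1 / s)) hstep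
        (fun i h => (hP i).mpr ((hu (Nat.le_succ _)).trans_lt ((hP _).mp h)))
        (fun i h => hg hs1 (u0 _) (not_lt.mp fun h' => h ((hP i).mpr h'))) L
      have hh : g (1 / s) ≤ g (u L) :=
        hg hs1 (u0 _) ((one_div_le_one_div_of_le hε hs.1.le).trans hL)
      simp only [hu0, hg0, sub_zero] at hd
      rw [min_eq_right (by linarith)] at hd
      calc κ * (ψ s - η) ≤ κ * ∑ i ∈ Finset.range L,
            (g (u (i + 1)) - g (u i)) * if s < 1 / u (i + 1) then 1 else 0 :=
            mul_le_mul_of_nonneg_left (by rw [hψ1 s hs0]; exact hd) hκ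
        _ ≤ _ := by
            rw [Finset.mul_sum]
            refine Finset.sum_le_sum fun i _ => ?_
            split_ifs with h
            · simpa using hC i
            · simp)
  rw [intervalIntegral.integral_const_mul,
    intervalIntegral.integral_sub hψ intervalIntegrable_const, intervalIntegral.integral_const,
    smul_eq_mul] at this
  refine le_trans (mul_le_mul_of_nonneg_left (by nlinarith) hκ) (this.trans ?_)
  refine Finset.sum_le_sum fun i _ => mul_le_mul_of_nonneg_left ?_ (hC0 i)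
  have := le_min (one_div_pos.mpr (hu1 i)).le hε.le
  linarith

/-- saturating curve -/
noncomputable def mf (x β u : ℝ) : ℝ := x * u / (1 + β * u)

lemma mf_nonneg {x β u : ℝ} (hx : 0 ≤ x) (hβ : 0 ≤ β) (hu : 0 ≤ u) : 0 ≤ mf x β u := by
  unfold mf; positivity

lemma mf_pos {x β u : ℝ} (hx : 0 < x) (hβ : 0 ≤ β) (hu : 0 < u) : 0 < mf x β u := by
  unfold mf; positivity

lemma mf_sub {x β u v : ℝ} (hβ : 0 ≤ β) (hu : 0 ≤ u) (hv : 0 ≤ v) :
    mf x β v - mf x β u = x * (v - u) / ((1 + β * u) * (1 + β * v)) := by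
  unfold mf; field_simp; ring

lemma mf_le {x β u v : ℝ} (hx : 0 ≤ x) (hβ : 0 ≤ β) (hu : 0 ≤ u) (huv : u ≤ v) :
    mf x β u ≤ mf x β v := by
  have hv := hu.trans huv
  have := mf_sub (x := x) hβ hu hv
  have h2 : 0 ≤ x * (v - u) / ((1 + β * u) * (1 + β * v)) :=
    div_nonneg (mul_nonneg hx (by linarith)) (by positivity)
  linarith

lemma mf_lip {x β u v : ℝ} (hx : 0 ≤ x) (hβ : 0 ≤ β) (hu : 0 ≤ u) (huv : u ≤ v) :
    mf x β v - mf x β u ≤ x * (v - u) := by
  have hv := hu.trans huv
  rw [mf_sub hβ hu hv]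
  refine div_le_self (mul_nonneg hx (by linarith)) ?_
  nlinarith [mul_nonneg hβ hu, mul_nonneg hβ hv, mul_nonneg (mul_nonneg hβ hu) (mul_nonneg hβ hv)]

lemma mf_mul {x β u : ℝ} (hx : 0 ≤ x) (hβ : 0 ≤ β) (hu : 0 ≤ u) : β * mf x β u ≤ x := by
  unfold mf
  rw [← mul_div_assoc, div_le_iff₀ (by positivity)]
  nlinarith

lemma mf_inv {x β u : ℝ} (hx : 0 < x) (hβ : 0 ≤ β) (hu : 0 < u) :
    1 / mf x β u * x = 1 / u + β := by
  unfold mf; field_simp

/-- the scalar determinant along the curve -/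
noncomputable def wf (a b c d x z u : ℝ) : ℝ :=
  1 + a * mf x (b * z) u + d * mf z (c * x) u + b * c * (mf x (b * z) u * mf z (c * x) u)

section
variable {a b c d x z : ℝ} (ha : 0 ≤ a) (hb : 0 ≤ b) (hc : 0 ≤ c) (hd : 0 ≤ d) (hac : a + c = 1)
  (hbd : b + d = 1) (hx : 0 < x) (hz : 0 < z)
include ha hb hc hd hac hbd hx hz

lemma wf_one {u : ℝ} (hu : 0 ≤ u) : 1 ≤ wf a b c d x z u := by
  have := mf_nonneg hx.le (mul_nonneg hb hz.le) hu
  have := mf_nonneg hz.le (mul_nonneg hc hx.le) hu
  unfold wf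
  have : 0 ≤ a * mf x (b * z) u + d * mf z (c * x) u + b * c * (mf x (b * z) u * mf z (c * x) u) := by
    positivity
  linarith

lemma wf_mono {u v : ℝ} (hu : 0 ≤ u) (huv : u ≤ v) : wf a b c d x z u ≤ wf a b c d x z v := by
  have := mf_nonneg hx.le (mul_nonneg hb hz.le) hu
  have := mf_nonneg hz.le (mul_nonneg hc hx.le) hu
  have := mf_le hx.le (mul_nonneg hb hz.le) hu huv
  have := mf_le hz.le (mul_nonneg hc hx.le) hu huv
  have := mf_nonneg hx.le (mul_nonneg hb hz.le) (hu.trans huv)
  unfold wf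
  gcongr

lemma wf_inc {u v : ℝ} (hu : 0 ≤ u) (huv : u ≤ v) :
    wf a b c d x z v - wf a b c d x z u ≤
      (mf x (b * z) v - mf x (b * z) u) * (a + b * c * mf z (c * x) v) +
      (mf z (c * x) v - mf z (c * x) u) * (d + b * c * mf x (b * z) v) := by
  have h1 := mf_le hx.le (mul_nonneg hb hz.le) hu huv
  have h2 := mf_le hz.le (mul_nonneg hc hx.le) hu huv
  have := mul_nonneg (mul_nonneg hb hc) (mul_nonneg (sub_nonneg.mpr h1) (sub_nonneg.mpr h2))
  unfold wf
  nlinarith

lemma wf_lip {u v : ℝ} (hu : 0 ≤ u) (huv : u ≤ v) :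
    wf a b c d x z v - wf a b c d x z u ≤ (x + z) * (v - u) := by
  have hv := hu.trans huv
  refine (wf_inc ha hb hc hd hac hbd hx hz hu huv).trans ?_
  have h1 := mf_lip hx.le (mul_nonneg hb hz.le) hu huv
  have h2 := mf_lip hz.le (mul_nonneg hc hx.le) hu huv
  have h3 := mf_mul hx.le (mul_nonneg hb hz.le) hv
  have h4 := mf_mul hz.le (mul_nonneg hc hx.le) hv
  have h5 := mf_nonneg hx.le (mul_nonneg hb hz.le) hv
  have h6 := mf_nonneg hz.le (mul_nonneg hc hx.le) hv
  have k1 := mul_le_mul_of_nonneg_right h1 (by positivity : 0 ≤ a + b * c * mf z (c * x) v)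
  have k2 := mul_le_mul_of_nonneg_right h2 (by positivity : 0 ≤ d + b * c * mf x (b * z) v)
  have k3 := mul_le_mul_of_nonneg_left h3 (mul_nonneg hc (sub_nonneg.mpr huv))
  have k4 := mul_le_mul_of_nonneg_left h4 (mul_nonneg hb (sub_nonneg.mpr huv))
  have e : (x + z) * (v - u) = ((a + c) * x + (b + d) * z) * (v - u) := by rw [hac, hbd]; ring
  rw [e]
  nlinarith

lemma wf_log {l1 l2 : ℝ} (h1 : 0 ≤ l1) (h2 : 0 ≤ l2) (hs : l1 + l2 = x + z)
    (hp : l1 * l2 = a * c * x ^ 2 + 2 * b * c * x * z + b * d * z ^ 2) {s : ℝ} (hs0 : 0 < s) :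
    (Real.log (s + l1) - Real.log s) + (Real.log (s + l2) - Real.log s) -
      (Real.log (s + b * z) - Real.log s) - (Real.log (s + c * x) - Real.log s) =
      Real.log (wf a b c d x z (1 / s)) := by
  have e : wf a b c d x z (1 / s) = (s + l1) * (s + l2) / ((s + b * z) * (s + c * x)) := by
    have : (s + l1) * (s + l2) = s ^ 2 + s * ((a + c) * x + (b + d) * z) +
        (a * c * x ^ 2 + 2 * b * c * x * z + b * d * z ^ 2) := by
      rw [hac, hbd, ← hp, one_mul, one_mul, ← hs]; ring
    rw [this]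
    unfold wf mf
    field_simp
    ring
  rw [e, Real.log_div (by positivity) (by positivity), Real.log_mul (by positivity) (by positivity),
    Real.log_mul (by positivity) (by positivity)]
  ring

lemma coef_log {u v : ℝ} (hu : 0 ≤ u) (huv : u ≤ v) :
    (1 + (x + z) * (v - u))⁻¹ * (Real.log (wf a b c d x z v) - Real.log (wf a b c d x z u)) ≤
      (mf x (b * z) v - mf x (b * z) u) * coA a d (b * c) (mf x (b * z) v) (mf z (c * x) v) +
      (mf z (c * x) v - mf z (c * x) u) * coA d a (b * c) (mf z (c * x) v) (mf x (b * z) v) := by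
  have w1 := wf_one ha hb hc hd hac hbd hx hz hu
  have w2 := wf_mono ha hb hc hd hac hbd hx hz hu huv
  have w3 := wf_inc ha hb hc hd hac hbd hx hz hu huv
  have w4 := wf_lip ha hb hc hd hac hbd hx hz hu huv
  have e1 : coA a d (b * c) (mf x (b * z) v) (mf z (c * x) v) =
      (a + b * c * mf z (c * x) v) / wf a b c d x z v := rfl
  have e2 : coA d a (b * c) (mf z (c * x) v) (mf x (b * z) v) =
      (d + b * c * mf x (b * z) v) / wf a b c d x z v := by
    unfold coA wf; congr 1; ring
  rw [e1, e2, ← mul_div_assoc, ← mul_div_assoc, ← add_div]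
  generalize wf a b c d x z v = W' at *
  generalize wf a b c d x z u = W at *
  have hT : 0 ≤ (x + z) * (v - u) := mul_nonneg (by positivity) (by linarith)
  generalize (x + z) * (v - u) = t at *
  refine le_trans ?_ (div_le_div_of_nonneg_right w3 (by linarith))
  rw [← Real.log_div (by linarith) (by linarith), inv_mul_le_iff₀ (by linarith)]
  refine (Real.log_le_sub_one_of_pos (div_pos (by linarith) (by linarith))).trans ?_
  rw [div_sub_one (by linarith), ← mul_div_assoc, div_le_div_iff₀ (by linarith) (by linarith)]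
  have : W' ≤ (1 + t) * W := by nlinarith
  nlinarith

lemma log_lip {u v : ℝ} (hu : 0 ≤ u) (huv : u ≤ v) :
    Real.log (wf a b c d x z v) - Real.log (wf a b c d x z u) ≤ (x + z) * (v - u) := by
  have w1 := wf_one ha hb hc hd hac hbd hx hz hu
  have w2 := wf_mono ha hb hc hd hac hbd hx hz hu huv
  have w4 := wf_lip ha hb hc hd hac hbd hx hz hu huv
  rw [← Real.log_div (by linarith) (by linarith)]
  refine (Real.log_le_sub_one_of_pos (div_pos (by linarith) (by linarith))).trans ?_
  rw [div_sub_one (by linarith)]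
  exact (div_le_self (by linarith) w1).trans w4

lemma coef_small {v S : ℝ} (hv : 0 < v) (hS : 0 < S) (h : mf x (b * z) v ≤ x / (S + (x + z))) :
    a / (1 + (x + z) / S) ≤ coA a d (b * c) (mf x (b * z) v) (mf z (c * x) v) := by
  have e1 : coA a d (b * c) (mf x (b * z) v) (mf z (c * x) v) =
      (a + b * c * mf z (c * x) v) / wf a b c d x z v := rfl
  have w1 := wf_one ha hb hc hd hac hbd hx hz hv.le
  have w4 := wf_lip ha hb hc hd hac hbd hx hz le_rfl hv.le
  have w0 : wf a b c d x z 0 = 1 := by simp [wf, mf]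
  have h6 := mf_nonneg hz.le (mul_nonneg hc hx.le) hv.le
  have hv1 : v ≤ 1 / S := by
    unfold mf at h
    rw [div_le_div_iff₀ (by positivity) (by positivity)] at h
    rw [le_div_iff₀ hS]
    have h' : v * (S + (x + z)) ≤ 1 + b * z * v := by
      have := le_of_mul_le_mul_left (a := x) (b := v * (S + (x + z))) (c := 1 + b * z * v)
        (by linarith) hx
      exact this
    have : b * z * v ≤ z * v := by
      have : b ≤ 1 := by linarith
      nlinarith [mul_pos hz hv]
    nlinarith [mul_pos hx hv]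
  have : (x + z) * v ≤ (x + z) / S := by
    rw [div_eq_mul_one_div]; exact mul_le_mul_of_nonneg_left hv1 (by positivity)
  rw [e1]
  refine div_le_div₀ (by positivity) (le_add_of_nonneg_right (by positivity)) (by linarith) ?_
  linarith

end

end Vale.Agent.P358
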