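import Vale.Agent.P358.Scalar

set_option linter.unusedSectionVars false

namespace Vale.Agent.P358
open Matrix MeasureTheory Filter Topology
open scoped ComplexOrder MatrixOrder

variable {K R : Type*} [Fintype K] [DecidableEq K] [Fintype R] [DecidableEq R]

lemma Lf_bounds {S y : ℝ} (hS : 0 < S) (hy : 0 ≤ y) :
    y * (Real.log S + 1) + Real.negMulLog y ≤ Lf S y ∧
      Lf S y ≤ y * (Real.log S + 1) + Real.negMulLog y + y ^ 2 / S := by
  have h1 : Real.log (S + y) - Real.log S ≤ y / S := by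
    rw [← Real.log_div (by linarith) hS.ne']
    refine (Real.log_le_sub_one_of_pos (by positivity)).trans (le_of_eq ?_)
    field_simp; ring
  have h2 : Real.log S - Real.log (S + y) ≤ - (y / (S + y)) := by
    rw [← Real.log_div hS.ne' (by linarith)]
    refine (Real.log_le_sub_one_of_pos (by positivity)).trans (le_of_eq ?_)
    field_simp; ring
  have h3 := mul_le_mul_of_nonneg_left h1 (by linarith : 0 ≤ S + y)
  have h4 := mul_le_mul_of_nonneg_left h2 (by linarith : 0 ≤ S + y)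
  have e3 : (S + y) * (y / S) = y + y ^ 2 / S := by field_simp
  have e4 : (S + y) * -(y / (S + y)) = -y := by field_simp
  rw [e3] at h3
  rw [e4] at h4
  unfold Lf Real.negMulLog
  constructor <;> linarith

lemma Lf_cont (y : ℝ) : Continuous fun S => Lf S y := by
  unfold Lf
  have := Real.continuous_mul_log
  exact ((this.comp (continuous_id.add continuous_const)).sub this).sub continuous_const

section
variable {a b c d x z : ℝ} (ha : 0 ≤ a) (hb : 0 ≤ b) (hc : 0 ≤ c) (hd : 0 ≤ d) (hac : a + c = 1)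
  (hbd : b + d = 1) (hx : 0 < x) (hz : 0 < z)
include ha hb hc hd hac hbd hx hz

lemma half_sum (xs : R → ℝ) (hxs : ∀ k, 0 ≤ xs k) (hsum : ∑ k, xs k = x) {S δ : ℝ} (hS : 0 < S)
    (hδ : 0 < δ) (L : ℕ) (hL : 1 / S ≤ L * δ) :
    a / (1 + (x + z) / S) *
      ∑ k, (Real.negMulLog (xs k) + xs k * Real.log x - x * δ * (S + (x + z))) +
      ∑ i ∈ Finset.range L, (mf x (b * z) ((i + 1 : ℕ) * δ) - mf x (b * z) (i * δ)) *
        coA a d (b * c) (mf x (b * z) ((i + 1 : ℕ) * δ)) (mf z (c * x) ((i + 1 : ℕ) * δ)) *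
        min (1 / ((i + 1 : ℕ) * δ)) S ≤
    ∑ i ∈ Finset.range L, (mf x (b * z) ((i + 1 : ℕ) * δ) - mf x (b * z) (i * δ)) *
        coA a d (b * c) (mf x (b * z) ((i + 1 : ℕ) * δ)) (mf z (c * x) ((i + 1 : ℕ) * δ)) *
        (∑ k, min (1 / mf x (b * z) ((i + 1 : ℕ) * δ) * xs k) (S + (x + z)) - b * z) := by
  have hβ := mul_nonneg hb hz.le
  have u0 : ∀ i : ℕ, 0 ≤ (i : ℝ) * δ := fun i => by positivity
  have u1 : ∀ i : ℕ, 0 < ((i + 1 : ℕ) : ℝ) * δ := fun i => by positivity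
  have u2 : ∀ i : ℕ, (i : ℝ) * δ ≤ ((i + 1 : ℕ) : ℝ) * δ := fun i => by push_cast; linarith
  have hm : Monotone fun i : ℕ => mf x (b * z) (i * δ) :=
    monotone_nat_of_le_succ fun i => mf_le hx.le hβ (u0 i) (u2 i)
  have cA : ∀ i : ℕ, 0 ≤ (mf x (b * z) ((i + 1 : ℕ) * δ) - mf x (b * z) (i * δ)) *
      coA a d (b * c) (mf x (b * z) ((i + 1 : ℕ) * δ)) (mf z (c * x) ((i + 1 : ℕ) * δ)) := by
    intro i
    have := mf_nonneg hx.le hβ (u1 i).le
    have := mf_nonneg hz.le (mul_nonneg hc hx.le) (u1 i).le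
    exact mul_nonneg (sub_nonneg.mpr (hm (Nat.le_succ i))) (by unfold coA; positivity)
  have key : ∀ k, _ := fun k => S2 (fun i : ℕ => mf x (b * z) (i * δ))
    (fun i => (mf x (b * z) ((i + 1 : ℕ) * δ) - mf x (b * z) (i * δ)) *
      coA a d (b * c) (mf x (b * z) ((i + 1 : ℕ) * δ)) (mf z (c * x) ((i + 1 : ℕ) * δ))) L
    (y := xs k) (S := S + (x + z)) (κ := a / (1 + (x + z) / S)) (η := x * δ) hx (hxs k)
    (hsum ▸ Finset.single_le_sum (fun k _ => hxs k) (Finset.mem_univ k)) (by positivity)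
    (by positivity) (by positivity) (by simp [mf]) hm (fun i => mf_pos hx hβ (u1 i))
    (fun i => (mf_lip hx.le hβ (u0 i) (u2 i)).trans (le_of_eq (by push_cast; ring)))
    (fun i h => by
      rw [mul_comm]
      exact mul_le_mul_of_nonneg_left (coef_small ha hb hc hd hac hbd hx hz (u1 i) hS h)
        (sub_nonneg.mpr (hm (Nat.le_succ i))))
    (by
      refine le_trans ?_ (mf_le hx.le hβ (by positivity) hL)
      have : mf x (b * z) (1 / S) = x / (S + b * z) := by unfold mf; field_simp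
      rw [this]
      refine div_le_div_of_nonneg_left hx.le (by positivity) ?_
      nlinarith)
  have key2 := Finset.sum_le_sum fun k (_ : k ∈ Finset.univ) => key k
  rw [← Finset.mul_sum, Finset.sum_comm] at key2
  refine le_trans (add_le_add_left key2 _) ?_
  rw [← Finset.sum_add_distrib]
  refine Finset.sum_le_sum fun i _ => ?_
  rw [← Finset.mul_sum, ← mul_add]
  refine mul_le_mul_of_nonneg_left ?_ (cA i)
  rw [Finset.sum_sub_distrib, ← Finset.sum_mul, ← Finset.sum_div, hsum, div_self hx.ne', one_mul,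
    mf_inv hx hβ (u1 i)]
  have : min (1 / (((i + 1 : ℕ) : ℝ) * δ)) S + b * z ≤
      min (1 / (((i + 1 : ℕ) : ℝ) * δ) + b * z) (S + (x + z)) := by
    refine le_min (by linarith [min_le_left (1 / (((i + 1 : ℕ) : ℝ) * δ)) S]) ?_
    have := min_le_right (1 / (((i + 1 : ℕ) : ℝ) * δ)) S
    nlinarith
  linarith

lemma mid_sum {l1 l2 : ℝ} (h1 : 0 ≤ l1) (h2 : 0 ≤ l2) (hs : l1 + l2 = x + z)
    (hp : l1 * l2 = a * c * x ^ 2 + 2 * b * c * x * z + b * d * z ^ 2) {S δ ε : ℝ} (hε : 0 < ε)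
    (hS : ε ≤ S) (hδ : 0 < δ) (L : ℕ) (hL : 1 / ε ≤ L * δ) :
    (1 + (x + z) * δ)⁻¹ * ((Lf S l1 + Lf S l2 - Lf S (b * z) - Lf S (c * x)) -
      (Lf ε l1 + Lf ε l2 - Lf ε (b * z) - Lf ε (c * x)) - (x + z) * δ * S) ≤
    ∑ i ∈ Finset.range L, (mf x (b * z) ((i + 1 : ℕ) * δ) - mf x (b * z) (i * δ)) *
        coA a d (b * c) (mf x (b * z) ((i + 1 : ℕ) * δ)) (mf z (c * x) ((i + 1 : ℕ) * δ)) *
        min (1 / ((i + 1 : ℕ) * δ)) S +
    ∑ i ∈ Finset.range L, (mf z (c * x) ((i + 1 : ℕ) * δ) - mf z (c * x) (i * δ)) *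
        coA d a (c * b) (mf z (c * x) ((i + 1 : ℕ) * δ)) (mf x (b * z) ((i + 1 : ℕ) * δ)) *
        min (1 / ((i + 1 : ℕ) * δ)) S := by
  have u0 : ∀ i : ℕ, 0 ≤ (i : ℝ) * δ := fun i => by positivity
  have u1 : ∀ i : ℕ, 0 < ((i + 1 : ℕ) : ℝ) * δ := fun i => by positivity
  have u2 : ∀ i : ℕ, (i : ℝ) * δ ≤ ((i + 1 : ℕ) : ℝ) * δ := fun i => by push_cast; linarith
  have u3 : ∀ i : ℕ, ((i + 1 : ℕ) : ℝ) * δ - i * δ = δ := fun i => by push_cast; ring
  have i1 := ii_log l1 ε S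
  have i2 := ii_log l2 ε S
  have i3 := ii_log (b * z) ε S
  have i4 := ii_log (c * x) ε S
  have := S1 (fun i : ℕ => (i : ℝ) * δ)
    (fun i => (mf x (b * z) ((i + 1 : ℕ) * δ) - mf x (b * z) (i * δ)) *
        coA a d (b * c) (mf x (b * z) ((i + 1 : ℕ) * δ)) (mf z (c * x) ((i + 1 : ℕ) * δ)) +
      (mf z (c * x) ((i + 1 : ℕ) * δ) - mf z (c * x) (i * δ)) *
        coA d a (b * c) (mf z (c * x) ((i + 1 : ℕ) * δ)) (mf x (b * z) ((i + 1 : ℕ) * δ)))
    (fun u => Real.log (wf a b c d x z u)) L (κ := (1 + (x + z) * δ)⁻¹) (η := (x + z) * δ)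
    hε hS (by positivity) (by positivity) (by simp) (monotone_nat_of_le_succ u2) u1
    (by simp [wf, mf])
    (fun u hu v _ huv => Real.log_le_log (by linarith [wf_one ha hb hc hd hac hbd hx hz hu])
      (wf_mono ha hb hc hd hac hbd hx hz hu huv))
    (fun i => by simpa only [u3] using log_lip ha hb hc hd hac hbd hx hz (u0 i) (u2 i))
    (fun i => by simpa only [u3] using coef_log ha hb hc hd hac hbd hx hz (u0 i) (u2 i)) hL
    (((i1.add i2).sub i3).sub i4) (fun s hs0 => wf_log ha hb hc hd hac hbd hx hz h1 h2 hs hp hs0)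
  rw [intervalIntegral.integral_sub ((i1.add i2).sub i3) i4,
    intervalIntegral.integral_sub (i1.add i2) i3, intervalIntegral.integral_add i1 i2,
    int_log, int_log, int_log, int_log] at this
  rw [← Finset.sum_add_distrib, mul_comm c b]
  refine le_trans (le_of_eq (by ring)) (this.trans (le_of_eq ?_))
  exact Finset.sum_congr rfl fun i _ => by ring

end

lemma star_pos (p q r : ℝ) {b c : ℝ} (hb : 0 ≤ b) (hc : 0 ≤ c) (hac : p ^ 2 + c = 1)
    (hbd : b + (q ^ 2 + r ^ 2) = 1) (he : p ^ 2 * r ^ 2 = b * c) (X0 Z0 : Matrix R K ℂ) {x z : ℝ}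
    (hxe : (X0 * X0ᴴ).trace.re = x) (hze : (Z0 * Z0ᴴ).trace.re = z) (hx : 0 < x) (hz : 0 < z)
    {l1 l2 : ℝ} (h1 : 0 ≤ l1) (h2 : 0 ≤ l2) (hs : l1 + l2 = x + z)
    (hp : l1 * l2 = p ^ 2 * c * x ^ 2 + 2 * b * c * x * z + b * (q ^ 2 + r ^ 2) * z ^ 2) :
    tf Real.negMulLog (X0 * X0ᴴ) - Real.negMulLog x + (tf Real.negMulLog (Z0 * Z0ᴴ) -
      Real.negMulLog z) + Real.negMulLog l1 + Real.negMulLog l2 ≤
      tf Real.negMulLog (outM p q r b c X0 Z0) := by
  have ha : 0 ≤ p ^ 2 := by positivity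
  have hd : 0 ≤ q ^ 2 + r ^ 2 := by positivity
  have htr : (outM p q r b c X0 Z0).trace.re = x + z := by
    rw [outM, trace_blocks]
    simp only [trace_add, trace_smul, smul_eq_mul, Complex.add_re, Complex.re_ofReal_mul, hxe, hze]
    linear_combination x * hac + z * hbd
  have main := fun (S : ℝ) (hS : 0 ≤ S) => integrated p q r hb hc hS X0 Z0
  rw [he, hxe, hze] at main
  obtain ⟨U, xs, hU, -, hX, hxs⟩ := specP (posSemidef_self_mul_conjTranspose X0)
  obtain ⟨V, zs, hV, -, hZ, hzs⟩ := specP (posSemidef_self_mul_conjTranspose Z0)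
  obtain ⟨W, os, hW, -, hO, hos⟩ := specP (outM_psd p q r hb hc X0 Z0)
  rw [hO, trace_spec hW] at htr
  rw [hX, trace_spec hU] at hxe
  rw [hZ, trace_spec hV] at hze
  rw [hO, hX, hZ, smul_spec, smul_spec] at main
  rw [hO, hX, hZ]
  simp only [tf_eq _ hU, tf_eq _ hV, tf_eq _ hW] at main ⊢
  generalize p ^ 2 = a at *
  generalize q ^ 2 + r ^ 2 = d at *
  obtain ⟨HX, hHX⟩ : ∃ H, H = ∑ k, (Real.negMulLog (xs k) + xs k * Real.log x) := ⟨_, rfl⟩
  obtain ⟨HZ, hHZ⟩ : ∃ H, H = ∑ k, (Real.negMulLog (zs k) + zs k * Real.log z) := ⟨_, rfl⟩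
  have step1 : ∀ S ε : ℝ, 0 < ε → ε ≤ S →
      (Lf S l1 + Lf S l2 - Lf S (b * z) - Lf S (c * x)) -
        (Lf ε l1 + Lf ε l2 - Lf ε (b * z) - Lf ε (c * x)) +
        a / (1 + (x + z) / S) * HX + d / (1 + (z + x) / S) * HZ ≤
      ∑ k, Lf (S + (x + z)) (os k) - ∑ k, Lf (S + (x + z)) (b * zs k) -
        ∑ k, Lf (S + (x + z)) (c * xs k) := by
    intro S ε hε hεS
    have hS := hε.trans_le hεS
    let Φ : ℝ → ℝ := fun δ => (1 + (x + z) * δ)⁻¹ *
      ((Lf S l1 + Lf S l2 - Lf S (b * z) - Lf S (c * x)) -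
      (Lf ε l1 + Lf ε l2 - Lf ε (b * z) - Lf ε (c * x)) - (x + z) * δ * S) +
      a / (1 + (x + z) / S) *
        ∑ k, (Real.negMulLog (xs k) + xs k * Real.log x - x * δ * (S + (x + z))) +
      d / (1 + (z + x) / S) *
        ∑ k, (Real.negMulLog (zs k) + zs k * Real.log z - z * δ * (S + (z + x)))
    have hΦ : ContinuousAt Φ 0 := by
      unfold Φ
      fun_prop (disch := simp)
    have hle : ∀ δ ∈ Set.Ioi (0 : ℝ), Φ δ ≤ ∑ k, Lf (S + (x + z)) (os k) -
        ∑ k, Lf (S + (x + z)) (b * zs k) - ∑ k, Lf (S + (x + z)) (c * xs k) := by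
      intro δ hδ
      have hδ' : 0 < δ := hδ
      obtain ⟨L, hL⟩ := exists_nat_ge (1 / ε / δ)
      rw [div_le_iff₀ hδ'] at hL
      have hL' : 1 / S ≤ L * δ := (one_div_le_one_div_of_le hε hεS).trans hL
      have u0 : ∀ i : ℕ, 0 ≤ (i : ℝ) * δ := fun i => by positivity
      have u1 : ∀ i : ℕ, 0 < ((i + 1 : ℕ) : ℝ) * δ := fun i => by positivity
      have u2 : ∀ i : ℕ, (i : ℝ) * δ ≤ ((i + 1 : ℕ) : ℝ) * δ := fun i => by push_cast; linarith
      have hβ := mul_nonneg hb hz.le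
      have hβ' := mul_nonneg hc hx.le
      have m1 := main (S + (x + z)) (by positivity) (fun i => mf x (b * z) (i * δ))
        (fun i => mf z (c * x) (i * δ)) (by simp [mf]) (by simp [mf])
        (monotone_nat_of_le_succ fun i => mf_le hx.le hβ (u0 i) (u2 i))
        (monotone_nat_of_le_succ fun i => mf_le hz.le hβ' (u0 i) (u2 i))
        (fun i => mf_pos hx hβ (u1 i)) (fun i => mf_pos hz hβ' (u1 i)) L
      have m2 := half_sum ha hb hc hd hac hbd hx hz xs hxs hxe hS hδ' L hL'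
      have m3 := half_sum hd hc hb ha (by linarith) (by linarith) hz hx zs hzs hze hS hδ' L hL'
      have m4 := mid_sum ha hb hc hd hac hbd hx hz h1 h2 hs hp hε hεS hδ' L hL
      rw [Finset.sum_add_distrib] at m1
      rw [mul_comm c b] at m3 m4
      simp only [add_comm z x] at m3
      simp only [Φ, add_comm z x]
      linarith
    have := le_of_tendsto (hΦ.tendsto.mono_left (nhdsWithin_le_nhds (s := Set.Ioi 0)))
      (eventually_nhdsWithin_of_forall hle)
    simpa [Φ, hHX, hHZ] using this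
  have step2 : ∀ S : ℝ, 0 < S →
      (Lf S l1 + Lf S l2 - Lf S (b * z) - Lf S (c * x)) +
        a / (1 + (x + z) / S) * HX + d / (1 + (z + x) / S) * HZ ≤
      ∑ k, Lf (S + (x + z)) (os k) - ∑ k, Lf (S + (x + z)) (b * zs k) -
        ∑ k, Lf (S + (x + z)) (c * xs k) := by
    intro S hS
    let Φ : ℝ → ℝ := fun ε => (Lf S l1 + Lf S l2 - Lf S (b * z) - Lf S (c * x)) -
        (Lf ε l1 + Lf ε l2 - Lf ε (b * z) - Lf ε (c * x)) +
        a / (1 + (x + z) / S) * HX + d / (1 + (z + x) / S) * HZ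
    have hΦ : Continuous Φ :=
      ((continuous_const.sub ((((Lf_cont _).add (Lf_cont _)).sub (Lf_cont _)).sub
        (Lf_cont _))).add continuous_const).add continuous_const
    have := le_of_tendsto ((hΦ.tendsto 0).mono_left (nhdsWithin_le_nhds (s := Set.Ioi 0)))
      (by
        filter_upwards [Ioo_mem_nhdsGT hS] with ε hε using step1 S ε hε.1 hε.2.le)
    simpa [Φ, Lf_zero] using this
  have step3 : ∀ t ∈ Set.Ioi (0 : ℝ),
      Real.negMulLog l1 + Real.negMulLog l2 - Real.negMulLog (b * z) - Real.negMulLog (c * x) +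
        a / (1 + (x + z) * t) * HX + d / (1 + (z + x) * t) * HZ -
        ((b * z) ^ 2 + (c * x) ^ 2 + ∑ k, os k ^ 2 + (x + z) ^ 2) * t ≤
      ∑ k, Real.negMulLog (os k) - ∑ k, Real.negMulLog (b * zs k) -
        ∑ k, Real.negMulLog (c * xs k) := by
    intro t ht
    have ht' : 0 < t := ht
    obtain ⟨S, rfl, hS⟩ : ∃ S : ℝ, t = S⁻¹ ∧ 0 < S := ⟨t⁻¹, (inv_inv t).symm, inv_pos.mpr ht'⟩
    have s2 := step2 S hS
    have hS' : 0 < S + (x + z) := by positivity
    have b1 := (Lf_bounds hS h1).1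
    have b2 := (Lf_bounds hS h2).1
    have b3 := (Lf_bounds hS (mul_nonneg hb hz.le)).2
    have b4 := (Lf_bounds hS (mul_nonneg hc hx.le)).2
    have c1 := Finset.sum_le_sum fun k (_ : k ∈ Finset.univ) => (Lf_bounds hS' (hos k)).2
    have c2 := Finset.sum_le_sum fun k (_ : k ∈ Finset.univ) =>
      (Lf_bounds hS' (mul_nonneg hb (hzs k))).1
    have c3 := Finset.sum_le_sum fun k (_ : k ∈ Finset.univ) =>
      (Lf_bounds hS' (mul_nonneg hc (hxs k))).1
    simp only [Finset.sum_add_distrib, ← Finset.sum_mul, ← Finset.mul_sum, ← Finset.sum_div,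
      htr, hxe, hze] at c1 c2 c3
    have d1 : (∑ k, os k ^ 2) / (S + (x + z)) ≤ (∑ k, os k ^ 2) * S⁻¹ := by
      rw [← div_eq_mul_inv]
      exact div_le_div_of_nonneg_left (by positivity) hS (by linarith)
    have d2 : Real.log (S + (x + z)) - Real.log S ≤ (x + z) * S⁻¹ := by
      rw [← Real.log_div hS'.ne' hS.ne']
      refine (Real.log_le_sub_one_of_pos (by positivity)).trans (le_of_eq ?_)
      field_simp; ring
    have d3 : 0 ≤ Real.log (S + (x + z)) - Real.log S :=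
      sub_nonneg.mpr (Real.log_le_log hS (by linarith))
    have d4 : (x + z - b * z - c * x) * (Real.log (S + (x + z)) - Real.log S) ≤
        (x + z) * ((x + z) * S⁻¹) :=
      mul_le_mul (by nlinarith [mul_nonneg hb hz.le, mul_nonneg hc hx.le]) d2 d3 (by positivity)
    have d5 : l1 * (Real.log S + 1) + l2 * (Real.log S + 1) = (x + z) * (Real.log S + 1) := by
      rw [← add_mul, hs]
    simp only [div_eq_mul_inv] at *
    linarith
  have hΦ : ContinuousAt (fun t : ℝ =>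
      Real.negMulLog l1 + Real.negMulLog l2 - Real.negMulLog (b * z) - Real.negMulLog (c * x) +
        a / (1 + (x + z) * t) * HX + d / (1 + (z + x) * t) * HZ -
        ((b * z) ^ 2 + (c * x) ^ 2 + ∑ k, os k ^ 2 + (x + z) ^ 2) * t) 0 := by
    fun_prop (disch := simp)
  have := le_of_tendsto (hΦ.tendsto.mono_left (nhdsWithin_le_nhds (s := Set.Ioi 0)))
      (eventually_nhdsWithin_of_forall step3)
  simp only [Real.negMulLog_mul, Finset.sum_add_distrib, ← Finset.sum_mul, ← Finset.mul_sum,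
    hxe, hze, mul_zero, add_zero, div_one, sub_zero] at this hHX hHZ
  have e1 : x * Real.log x = - Real.negMulLog x := by simp [Real.negMulLog]
  have e2 : z * Real.log z = - Real.negMulLog z := by simp [Real.negMulLog]
  rw [hHX, hHZ, e1, e2] at this
  have ea : a = 1 - c := by linarith
  have ed : d = 1 - b := by linarith
  rw [ea, ed] at this
  linarith

end Vale.Agent.P358
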